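import Mathlib

/-! Lemma 1 of the P037 double-exponential blueprint (chain lemma). -/

namespace Vale.Agent.Lib.P037D

open Finset

variable {P Λ : Type*} [LinearOrder P] [Fintype P]

open scoped Classical in
/-- Strict occurrences of the word `u` in `w` with all positions in `U`. -/
noncomputable def occ (w : P → Λ) {k : ℕ} (u : Fin k → Λ) (U : Finset P) : Finset (Fin k → P) :=
  (univ : Finset (Fin k → P)).filter
    (fun p => StrictMono p ∧ (∀ j, p j ∈ U) ∧ ∀ j, w (p j) = u j)

omit [Fintype P] in
/-- Initial segments of a finite linear order. -/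
lemma exists_initial_segment (O : Finset P) (g : ℕ) (hg : 0 < g) (hO : g ≤ O.card) :
    ∃ t ∈ O, (O.filter (· ≤ t)).card = g := by
  have hlt : g - 1 < O.card := by omega
  let e := O.orderEmbOfFin rfl
  refine ⟨e ⟨g - 1, hlt⟩, Finset.orderEmbOfFin_mem _ _ _, ?_⟩
  have h : O.filter (· ≤ e ⟨g - 1, hlt⟩) = (Finset.Iic (⟨g - 1, hlt⟩ : Fin O.card)).map e.toEmbedding := by
    ext x
    simp only [mem_filter, mem_map, mem_Iic, RelEmbedding.coe_toEmbedding]
    constructor
    · rintro ⟨hx, hxt⟩
      have hxr : x ∈ Set.range e := by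
        rw [Finset.range_orderEmbOfFin]
        exact hx
      obtain ⟨i, rfl⟩ := hxr
      exact ⟨i, e.le_iff_le.1 hxt, rfl⟩
    · rintro ⟨i, hi, rfl⟩
      exact ⟨Finset.orderEmbOfFin_mem _ _ _, e.le_iff_le.2 hi⟩
  rw [h, card_map, Fin.card_Iic]
  simp
  omega

/-- The chain lemma, in inductive form. -/
theorem chain_aux (w : P → Λ) (g : ℕ) (hg : 0 < g) :
    ∀ (k : ℕ) (u : Fin k → Λ) (U : Finset P), (∀ x ∈ U, ∀ y, x ≤ y → y ∈ U) →
      (occ w u U).card < g ^ k →
      ∃ X Θ : Finset P, X.card ≤ k * g ∧ Θ.card ≤ k ∧
        ∀ p : Fin k → P, (∀ j, w (p j) = u j) → (∀ j, p j ∉ X) →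
          (∀ h : 0 < k, p ⟨0, h⟩ ∈ U) →
          ∃ (j j' : Fin k), j'.val = j.val + 1 ∧ ∃ t ∈ Θ, p j' ≤ t ∧ t < p j := by
  classical
  intro k
  induction k with
  | zero =>
    intro u U _ hocc
    exfalso
    have : (occ w u U).card = 1 := by
      have : occ w u U = {Fin.elim0} := by
        ext p
        simp only [occ, mem_filter, mem_univ, true_and, mem_singleton]
        constructor
        · intro _
          funext i
          exact i.elim0
        · intro _
          exact ⟨fun i => i.elim0, fun i => i.elim0, fun i => i.elim0⟩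
      rw [this, card_singleton]
    rw [this] at hocc
    simp at hocc
  | succ k ih =>
    intro u U hU hocc
    set O := U.filter (fun x => w x = u 0) with hO
    by_cases hsmall : O.card < g
    · refine ⟨O, ∅, ?_, by simp, ?_⟩
      · calc O.card ≤ g := hsmall.le
          _ ≤ (k + 1) * g := Nat.le_mul_of_pos_left _ (by omega)
      · intro p hw hX h0
        exfalso
        apply hX 0
        exact mem_filter.2 ⟨h0 (by omega), hw 0⟩
    · push Not at hsmall
      obtain ⟨t, htO, htc⟩ := exists_initial_segment O g hg hsmall
      set B := O.filter (· ≤ t) with hB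
      let U' : Finset P := univ.filter (fun x => t < x)
      have hU' : ∀ x ∈ U', ∀ y, x ≤ y → y ∈ U' := by
        intro x hx y hxy
        simp only [U', mem_filter, mem_univ, true_and] at hx ⊢
        exact lt_of_lt_of_le hx hxy
      have htU : t ∈ U := (mem_filter.1 htO).1
      have hU'U : ∀ x ∈ U', x ∈ U := by
        intro x hx
        simp only [U', mem_filter, mem_univ, true_and] at hx
        exact hU t htU x hx.le
      -- the injection
      have hinj : (B ×ˢ occ w (Fin.tail u) U').card ≤ (occ w u U).card := by
        refine card_le_card_of_injOn (fun q => Fin.cons q.1 q.2) ?_ ?_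
        · rintro ⟨b, q⟩ hq
          simp only [coe_product, Set.mem_prod, mem_coe] at hq
          obtain ⟨hb, hq⟩ := hq
          simp only [occ, mem_filter, mem_univ, true_and] at hq
          obtain ⟨hq1, hq2, hq3⟩ := hq
          have hb' : b ∈ O ∧ b ≤ t := mem_filter.1 hb
          have hbU : b ∈ U := (mem_filter.1 hb'.1).1
          have hbw : w b = u 0 := (mem_filter.1 hb'.1).2
          simp only [occ, coe_filter, mem_univ, true_and, Set.mem_ofPred_eq]
          refine ⟨?_, ?_, ?_⟩
          · -- strict monotone
            intro a b hab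
            rcases Fin.eq_zero_or_eq_succ a with rfl | ⟨a', rfl⟩
            · rcases Fin.eq_zero_or_eq_succ b with rfl | ⟨b', rfl⟩
              · exact absurd hab (lt_irrefl _)
              · simp only [Fin.cons_zero, Fin.cons_succ]
                have h1 := hq2 b'
                simp only [U', mem_filter, mem_univ, true_and] at h1
                exact lt_of_le_of_lt hb'.2 h1
            · rcases Fin.eq_zero_or_eq_succ b with rfl | ⟨b', rfl⟩
              · exact absurd hab (Fin.not_lt_zero _)
              · simp only [Fin.cons_succ]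
                exact hq1 (Fin.succ_lt_succ_iff.1 hab)
          · intro j
            refine Fin.cases ?_ (fun j' => ?_) j
            · simpa using hbU
            · simpa using hU'U _ (hq2 j')
          · intro j
            refine Fin.cases ?_ (fun j' => ?_) j
            · simpa using hbw
            · simpa [Fin.tail] using hq3 j'
        · rintro ⟨b, q⟩ _ ⟨b', q'⟩ _ h
          have h' := Fin.cons_injective2 h
          simp only at h'
          exact Prod.ext h'.1 h'.2
      have htail : (occ w (Fin.tail u) U').card < g ^ k := by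
        rw [card_product, htc] at hinj
        have : g * (occ w (Fin.tail u) U').card < g * g ^ k := by
          calc _ ≤ _ := hinj
            _ < g ^ (k + 1) := hocc
            _ = _ := by ring
        exact Nat.lt_of_mul_lt_mul_left this
      obtain ⟨X', Θ', hX', hΘ', hprop⟩ := ih (Fin.tail u) U' hU' htail
      refine ⟨B ∪ X', insert t Θ', ?_, ?_, ?_⟩
      · calc (B ∪ X').card ≤ B.card + X'.card := card_union_le _ _
          _ ≤ g + k * g := by rw [htc]; omega
          _ = _ := by ring
      · exact (card_insert_le _ _).trans (by omega)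
      · intro p hw hX h0
        have hp0 : t < p 0 := by
          by_contra hle
          push Not at hle
          apply hX 0
          exact mem_union_left _ (mem_filter.2 ⟨mem_filter.2 ⟨h0 (by omega), hw 0⟩, hle⟩)
        by_cases hk : 0 < k
        · by_cases hle : p ⟨1, by omega⟩ ≤ t
          · exact ⟨0, ⟨1, by omega⟩, by simp, t, mem_insert_self _ _, hle, hp0⟩
          · push Not at hle
            obtain ⟨j, j', hjj', s, hs, h1, h2⟩ := hprop (Fin.tail p)
              (fun j => by simpa [Fin.tail] using hw j.succ)
              (fun j h => hX j.succ (mem_union_right _ h))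
              (fun _ => by
                simp only [U', mem_filter, mem_univ, true_and, Fin.tail]
                exact hle)
            exact ⟨j.succ, j'.succ, by simp [hjj'], s, mem_insert_of_mem hs, h1, h2⟩
        · have hk0 : k = 0 := by omega
          subst hk0
          obtain ⟨j, -⟩ := hprop (Fin.tail p) (fun j => j.elim0) (fun j => j.elim0)
            (fun h => absurd h (by omega))
          exact j.elim0

/-- Lemma 1 (chain): few strict occurrences give a small hitting set plus thresholds. -/
theorem chain_lemma (w : P → Λ) {k g : ℕ} (hg : 0 < g) (u : Fin k → Λ)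
    (hocc : (occ w u univ).card < g ^ k) :
    ∃ X Θ : Finset P, X.card ≤ k * g ∧ Θ.card ≤ k ∧
      ∀ p : Fin k → P, (∀ j, w (p j) = u j) → (∀ j, p j ∉ X) →
        ∃ (j j' : Fin k), j'.val = j.val + 1 ∧ ∃ t ∈ Θ, p j' ≤ t ∧ t < p j := by
  obtain ⟨X, Θ, h1, h2, h3⟩ := chain_aux w g hg k u univ (fun _ _ _ _ => mem_univ _) hocc
  exact ⟨X, Θ, h1, h2, fun p hw hX => h3 p hw hX (fun _ => mem_univ _)⟩

omit [Fintype P] in
/-- No weakly increasing occurrence avoids the hitting set. -/
theorem no_monotone_occurrence {k : ℕ} {u : Fin k → Λ} (w : P → Λ) {X Θ : Finset P}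
    (h : ∀ p : Fin k → P, (∀ j, w (p j) = u j) → (∀ j, p j ∉ X) →
        ∃ (j j' : Fin k), j'.val = j.val + 1 ∧ ∃ t ∈ Θ, p j' ≤ t ∧ t < p j)
    (p : Fin k → P) (hp : Monotone p) (hw : ∀ j, w (p j) = u j) (hX : ∀ j, p j ∉ X) : False := by
  obtain ⟨j, j', hjj', t, -, h1, h2⟩ := h p hw hX
  have : j ≤ j' := by
    rw [Fin.le_def]
    omega
  exact absurd (lt_of_le_of_lt ((hp this).trans h1) h2) (lt_irrefl _)

end Vale.Agent.Lib.P037D
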