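import Mathlib

/-! Lemma 2 of the P037 double-exponential blueprint: many traces force a copy. -/

namespace Vale.Agent.Lib.P037D

open Finset

section HK

variable {α : Type*} [DecidableEq α] [Fintype α]

/-- The sets lying in all the families indexed up to `j`. -/
noncomputable def common (S : ℕ → Finset (Finset α)) (j : ℕ) : Finset (Finset α) := by
  classical
  exact (univ : Finset (Finset α)).filter (fun x => ∀ i, i ≤ j → x ∈ S i)

lemma mem_common (S : ℕ → Finset (Finset α)) (j : ℕ) (x : Finset α) :
    x ∈ common S j ↔ ∀ i, i ≤ j → x ∈ S i := by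
  classical
  simp [common]

/-- Iterated Harris-Kleitman. -/
lemma hk_iter (S : ℕ → Finset (Finset α))
    (hS : ∀ i, IsLowerSet (S i : Set (Finset α))) (s : ℕ) (k : ℕ)
    (hs : ∀ i, i ≤ k → s ≤ (S i).card) :
    s ^ (k + 1) ≤ (2 ^ Fintype.card α) ^ k * (common S k).card := by
  have key : ∀ j, j ≤ k →
      s ^ (j + 1) ≤ (2 ^ Fintype.card α) ^ j * (common S j).card ∧
      IsLowerSet ((common S j : Finset (Finset α)) : Set (Finset α)) := by
    intro j
    induction j with
    | zero =>
      intro _
      have e : common S 0 = S 0 := by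
        ext x; simp [mem_common]
      rw [e]
      refine ⟨?_, hS 0⟩
      simpa using hs 0 (Nat.zero_le _)
    | succ j ih =>
      intro hj
      obtain ⟨h1, h2⟩ := ih (by omega)
      have e : common S (j + 1) = common S j ∩ S (j + 1) := by
        ext x
        simp only [mem_common, mem_inter]
        constructor
        · intro h
          exact ⟨fun i hi => h i (by omega), h _ le_rfl⟩
        · rintro ⟨h, h'⟩ i hi
          rcases Nat.lt_or_ge i (j + 1) with h'' | h''
          · exact h i (by omega)
          · have : i = j + 1 := by omega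
            exact this ▸ h'
      rw [e]
      constructor
      · have hk := IsLowerSet.le_card_inter_finset h2 (hS (j + 1))
        have hs' := hs (j + 1) hj
        calc s ^ (j + 1 + 1) = s ^ (j + 1) * s := by ring
          _ ≤ ((2 ^ Fintype.card α) ^ j * (common S j).card)
                * (S (j + 1)).card := Nat.mul_le_mul h1 hs'
          _ = (2 ^ Fintype.card α) ^ j *
                ((common S j).card * (S (j + 1)).card) := by ring
          _ ≤ (2 ^ Fintype.card α) ^ j * (2 ^ Fintype.card α *
                (common S j ∩ S (j + 1)).card) := Nat.mul_le_mul_left _ hk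
          _ = _ := by ring
      · rw [coe_inter]
        exact h2.inter (hS _)
  exact (key k le_rfl).1

/-- The number of subsets of size less than `k` of a type with `N` elements. -/
lemma card_small_subsets (k : ℕ) :
    ((univ : Finset (Finset α)).filter (fun x => x.card < k)).card
      = ∑ j ∈ range k, (Fintype.card α).choose j := by
  have : (univ : Finset (Finset α)).filter (fun x => x.card < k)
      = (range k).biUnion (fun j => (univ : Finset (Finset α)).filter (fun x => x.card = j)) := by
    ext x; simp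
  rw [this, card_biUnion]
  · refine sum_congr rfl (fun j _ => ?_)
    have := Finset.card_powersetCard j (univ : Finset α)
    rw [card_univ] at this
    rw [← this, powersetCard_eq_filter]
    simp [powerset_univ]
  · intro i _ j _ hij
    exact disjoint_filter.2 (fun x _ h h' => hij (h ▸ h'))

/-- A family meeting many lower sets contains a `k`-set in all of them. -/
lemma exists_common_kset (S : ℕ → Finset (Finset α))
    (hS : ∀ i, IsLowerSet (S i : Set (Finset α))) (s k : ℕ) (hk : 0 < k)
    (hs : ∀ i, i < k → s ≤ (S i).card)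
    (hnum : (2 ^ Fintype.card α) ^ (k - 1) * ∑ j ∈ range k, (Fintype.card α).choose j < s ^ k) :
    ∃ c : Finset α, c.card = k ∧ ∀ i, i < k → c ∈ S i := by
  obtain ⟨l, rfl⟩ : ∃ l, k = l + 1 := ⟨k - 1, by omega⟩
  classical
  have h1 := hk_iter S hS s l (fun i hi => hs i (by omega))
  simp only [Nat.add_sub_cancel] at hnum
  have h2 : ∑ j ∈ range (l + 1), (Fintype.card α).choose j < (common S l).card := by
    have := lt_of_lt_of_le hnum h1
    exact Nat.lt_of_mul_lt_mul_left this
  rw [← card_small_subsets] at h2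
  obtain ⟨x, hx, hx'⟩ := exists_mem_notMem_of_card_lt_card h2
  simp only [mem_filter, mem_univ, true_and, not_lt] at hx'
  rw [mem_common] at hx
  obtain ⟨c, hcx, hc⟩ := exists_subset_card_eq hx'
  refine ⟨c, hc, fun i hi => ?_⟩
  have := hS i hcx (mem_coe.2 (hx i (by omega)))
  exact mem_coe.1 this

end HK

section Core

variable {R α : Type*} [LinearOrder R] [DecidableEq α] [Fintype α]

/-- The core of Lemma 2. -/
lemma shatter_core (tr : R → Finset α) (k s : ℕ) (hk : 0 < k) (Y : Finset R)
    (hinj : Set.InjOn tr (Y : Set R)) (hcard : k * s ≤ Y.card)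
    (hnum : (2 ^ Fintype.card α) ^ (k - 1) * ∑ j ∈ range k, (Fintype.card α).choose j < s ^ k) :
    ∃ c : Finset α, c.card = k ∧ ∃ F : Fin k → (t : Finset α) → t ⊆ c → R,
      (∀ i t ht, F i t ht ∈ Y) ∧ (∀ i t ht, c ∩ tr (F i t ht) = t) ∧
      (∀ i i' t t' ht ht', i < i' → F i t ht < F i' t' ht') := by
  classical
  set e := Y.orderEmbOfFin rfl with he
  have hbound : ∀ (i : ℕ) (x : ℕ), i < k → x < s → i * s + x < Y.card := by
    intro i x hi hx
    calc i * s + x < (i + 1) * s := by nlinarith
      _ ≤ k * s := Nat.mul_le_mul_right _ hi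
      _ ≤ _ := hcard
  -- segments indexed by natural numbers
  let Seg : ℕ → Finset R := fun i =>
    if hi : i < k then (univ : Finset (Fin s)).image (fun x : Fin s => e ⟨i * s + x.val, hbound i x.val hi x.2⟩)
    else ∅
  have hSegSub : ∀ i, Seg i ⊆ Y := by
    intro i r hr
    simp only [Seg] at hr
    split_ifs at hr with hi
    · obtain ⟨x, -, rfl⟩ := mem_image.1 hr
      exact Finset.orderEmbOfFin_mem _ _ _
    · simp at hr
  have hSegCard : ∀ i, i < k → (Seg i).card = s := by
    intro i hi
    simp only [Seg, dif_pos hi]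
    rw [card_image_of_injective]
    · simp
    · intro x y hxy
      have := e.injective hxy
      simp only [Fin.mk.injEq] at this
      exact Fin.ext (by omega)
  have hSegLt : ∀ i i' r r', i < i' → r ∈ Seg i → r' ∈ Seg i' → r < r' := by
    intro i i' r r' hii' hr hr'
    simp only [Seg] at hr hr'
    split_ifs at hr hr' with hi hi'
    · obtain ⟨x, -, rfl⟩ := mem_image.1 hr
      obtain ⟨x', -, rfl⟩ := mem_image.1 hr'
      apply e.strictMono
      show i * s + x < i' * s + x'
      have : (i + 1) * s ≤ i' * s := Nat.mul_le_mul_right _ hii'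
      have h3 := x.2
      nlinarith
    all_goals simp_all
  -- families of traces
  let Fam : ℕ → Finset (Finset α) := fun i => (Seg i).image tr
  have hFamCard : ∀ i, i < k → (Fam i).card = s := by
    intro i hi
    rw [card_image_of_injOn, hSegCard i hi]
    exact hinj.mono (by exact_mod_cast hSegSub i)
  obtain ⟨c, hc, hcS⟩ := exists_common_kset (fun i => (Fam i).shatterer)
    (fun i => isLowerSet_shatterer _) s k hk
    (fun i hi => by
      have := card_le_card_shatterer (Fam i)
      rw [hFamCard i hi] at this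
      exact this) hnum
  have hsh : ∀ (i : Fin k) (t : Finset α), t ⊆ c → ∃ r, r ∈ Seg i ∧ c ∩ tr r = t := by
    intro i t ht
    have h := hcS i i.2
    rw [mem_shatterer] at h
    obtain ⟨u, hu, hcu⟩ := h ht
    obtain ⟨r, hr, rfl⟩ := mem_image.1 hu
    exact ⟨r, hr, hcu⟩
  choose F hF1 hF2 using hsh
  refine ⟨c, hc, F, ?_, ?_, ?_⟩
  · intro i t ht
    exact hSegSub i (hF1 i t ht)
  · intro i t ht
    exact hF2 i t ht
  · intro i i' t t' ht ht' hii'
    exact hSegLt i i' _ _ hii' (hF1 i t ht) (hF1 i' t' ht')

end Core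

section Copy

variable {R C : Type*} [LinearOrder R] [LinearOrder C]

/-- The trace of row `r` on the column set `T`. -/
def traceOn (A : R → C → Bool) (T : Finset C) (r : R) : Finset C :=
  T.filter (fun c => A r c = true)

/-- The Sauer-Shelah count. -/
def sauer (D t : ℕ) : ℕ := ∑ i ∈ range D, t.choose i

omit [LinearOrder R] [LinearOrder C] in
/-- Many traces give a shattered set of size `D`. -/
lemma exists_shattered_subset [DecidableEq C] (A : R → C → Bool) (D : ℕ) (Y : Finset R) (T : Finset C)
    [DecidableEq R] (htr : sauer D T.card < (Y.image (traceOn A T)).card) :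
    ∃ C0 : Finset C, C0 ⊆ T ∧ C0.card = D ∧ (Y.image (traceOn A T)).Shatters C0 := by
  classical
  set 𝒜 := Y.image (traceOn A T) with h𝒜
  have h1 := card_le_card_shatterer 𝒜
  by_contra hno
  have hsub : 𝒜.shatterer ⊆ (range D).biUnion (fun i => powersetCard i T) := by
    intro x hx
    rw [mem_shatterer] at hx
    have hxT : x ⊆ T := by
      obtain ⟨t, ht, hxt⟩ := hx.exists_superset
      obtain ⟨r, -, rfl⟩ := mem_image.1 ht
      exact hxt.trans (filter_subset _ _)
    have hlt : x.card < D := by
      by_contra h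
      push Not at h
      obtain ⟨C0, hC0, hC0c⟩ := exists_subset_card_eq h
      exact hno ⟨C0, hC0.trans hxT, hC0c, hx.mono_right hC0⟩
    simp only [mem_biUnion, mem_range, mem_powersetCard]
    exact ⟨x.card, hlt, hxT, rfl⟩
  have h2 := card_le_card hsub
  have h3 : ((range D).biUnion (fun i => powersetCard i T)).card ≤ sauer D T.card := by
    refine card_biUnion_le.trans ?_
    simp [sauer, card_powersetCard]
  omega

/-- Lemma 2: more traces than the Sauer-Shelah count force an ordered copy. -/
theorem copy_of_traces [DecidableEq C] [DecidableEq R] (A : R → C → Bool) {k D : ℕ}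
    (H : Fin k → Fin k → Bool) (hk : 0 < k)
    (hD : (2 * k) ^ k * ∑ j ∈ range k, D.choose j < 2 ^ D) (Y : Finset R) (T : Finset C)
    (htr : sauer D T.card < (Y.image (traceOn A T)).card) :
    ∃ (r : Fin k → R) (c : Fin k → C), StrictMono r ∧ StrictMono c ∧ (∀ i, r i ∈ Y) ∧
      (∀ j, c j ∈ T) ∧ ∀ i j, A (r i) (c j) = H i j := by
  classical
  obtain ⟨C0, hC0T, hC0c, hsh⟩ := exists_shattered_subset A D Y T htr
  -- traces on the subtype
  let tr : R → Finset (↥C0) := fun r => univ.filter (fun x : ↥C0 => A r x.1 = true)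
  have hcardα : Fintype.card (↥C0) = D := by simp [hC0c]
  have hrow : ∀ W : Finset (↥C0), ∃ r ∈ Y, tr r = W := by
    intro W
    have hW : W.map (Function.Embedding.subtype _) ⊆ C0 := by
      intro x hx
      obtain ⟨y, -, rfl⟩ := mem_map.1 hx
      exact y.2
    obtain ⟨u, hu, hCu⟩ := hsh hW
    obtain ⟨r, hr, rfl⟩ := mem_image.1 hu
    refine ⟨r, hr, ?_⟩
    ext x
    simp only [tr, mem_filter, mem_univ, true_and]
    have hx : x.1 ∈ C0 ∩ traceOn A T r ↔ x.1 ∈ W.map (Function.Embedding.subtype _) := by
      rw [hCu]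
    simp only [mem_inter, traceOn, mem_filter, mem_map, Function.Embedding.subtype_apply] at hx
    constructor
    · intro h
      obtain ⟨y, hy, hyx⟩ := hx.1 ⟨x.2, hC0T x.2, h⟩
      exact (Subtype.ext hyx) ▸ hy
    · intro h
      exact (hx.2 ⟨x, h, rfl⟩).2.2
  choose ρ hρY hρtr using hrow
  let Y' : Finset R := univ.image ρ
  have hρinj : Function.Injective ρ := by
    intro W W' h
    rw [← hρtr W, ← hρtr W', h]
  have hY'card : Y'.card = 2 ^ D := by
    simp only [Y']
    rw [card_image_of_injective _ hρinj]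
    simp [hC0c]
  have hinj : Set.InjOn tr (Y' : Set R) := by
    intro a ha b hb hab
    obtain ⟨W, -, rfl⟩ := mem_image.1 (mem_coe.1 ha)
    obtain ⟨W', -, rfl⟩ := mem_image.1 (mem_coe.1 hb)
    rw [hρtr, hρtr] at hab
    rw [hab]
  -- numerics
  set s := 2 ^ D / k with hs
  have hsum1 : 1 ≤ ∑ j ∈ range k, D.choose j := by
    calc 1 = D.choose 0 := by simp
      _ ≤ _ := single_le_sum (f := fun j => D.choose j) (fun _ _ => Nat.zero_le _)
            (mem_range.2 hk)
  have hpow : k ≤ (2 * k) ^ k := by
    calc k ≤ 2 * k := by omega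
      _ = (2 * k) ^ 1 := by simp
      _ ≤ (2 * k) ^ k := Nat.pow_le_pow_right (by omega) hk
  have hbig : (2 * k) ^ k < 2 ^ D := by
    calc (2 * k) ^ k = (2 * k) ^ k * 1 := by simp
      _ ≤ _ := Nat.mul_le_mul_left _ hsum1
      _ < _ := hD
  have hs1 : 1 ≤ s := Nat.div_pos (by omega) hk
  have hs2 : 2 ^ D ≤ 2 * k * s := by
    have h1 := Nat.div_add_mod (2 ^ D) k
    have h2 := Nat.mod_lt (2 ^ D) hk
    have h3 : k ≤ k * s := Nat.le_mul_of_pos_right _ hs1
    rw [← hs] at h1
    nlinarith
  have hcard : k * s ≤ Y'.card := by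
    rw [hY'card]
    exact Nat.mul_div_le _ _
  have hnum : (2 ^ Fintype.card (↥C0)) ^ (k - 1) *
      ∑ j ∈ range k, (Fintype.card (↥C0)).choose j < s ^ k := by
    rw [hcardα]
    have hpk : (2 ^ D) ^ k ≤ (2 * k) ^ k * s ^ k := by
      rw [← mul_pow]
      exact Nat.pow_le_pow_left hs2 k
    have hkk : (2 ^ D) ^ k = (2 ^ D) ^ (k - 1) * 2 ^ D := by
      rw [← pow_succ]
      congr 1
      omega
    have hpos : 0 < (2 * k) ^ k := by positivity
    have hpos2 : 0 < (2 ^ D) ^ (k - 1) := by positivity
    refine Nat.lt_of_mul_lt_mul_left (a := (2 * k) ^ k) ?_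
    calc (2 * k) ^ k * ((2 ^ D) ^ (k - 1) * ∑ j ∈ range k, D.choose j)
        = (2 ^ D) ^ (k - 1) * ((2 * k) ^ k * ∑ j ∈ range k, D.choose j) := by ring
      _ < (2 ^ D) ^ (k - 1) * 2 ^ D := Nat.mul_lt_mul_of_pos_left hD hpos2
      _ = (2 ^ D) ^ k := hkk.symm
      _ ≤ _ := hpk
  obtain ⟨c, hc, F, hF1, hF2, hF3⟩ := shatter_core tr k s hk Y' hinj hcard hnum
  let cs := c.orderEmbOfFin hc
  let tt : Fin k → Finset (↥C0) := fun i => (univ.filter (fun j => H i j = true)).image cs
  have htt : ∀ i, tt i ⊆ c := by
    intro i x hx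
    obtain ⟨j, -, rfl⟩ := mem_image.1 hx
    exact Finset.orderEmbOfFin_mem _ _ _
  refine ⟨fun i => F i (tt i) (htt i), fun j => (cs j).1, ?_, ?_, ?_, ?_, ?_⟩
  · intro i i' hii'
    exact hF3 i i' _ _ _ _ hii'
  · intro j j' hjj'
    exact cs.strictMono hjj'
  · intro i
    have := hF1 i (tt i) (htt i)
    obtain ⟨W, -, hW⟩ := mem_image.1 this
    show F i (tt i) (htt i) ∈ Y
    rw [← hW]
    exact hρY W
  · intro j
    exact hC0T (cs j).2
  · intro i j
    have h1 := hF2 i (tt i) (htt i)
    have hmem : cs j ∈ c := Finset.orderEmbOfFin_mem _ _ _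
    have h2 : cs j ∈ tr (F i (tt i) (htt i)) ↔ cs j ∈ tt i := by
      constructor
      · intro h
        have h' := mem_inter.2 ⟨hmem, h⟩
        rwa [h1] at h'
      · intro h
        have h' : cs j ∈ c ∩ tr (F i (tt i) (htt i)) := by
          rw [h1]
          exact h
        exact (mem_inter.1 h').2
    simp only [tr, mem_filter, mem_univ, true_and] at h2
    have h3 : cs j ∈ tt i ↔ H i j = true := by
      simp only [tt, mem_image, mem_filter, mem_univ, true_and]
      constructor
      · rintro ⟨j', hj', hjj'⟩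
        exact (cs.injective hjj') ▸ hj'
      · intro h
        exact ⟨j, h, rfl⟩
    rw [h3] at h2
    cases h4 : A (F i (tt i) (htt i)) (cs j).1 <;> cases h5 : H i j <;> simp_all

end Copy

section Count

variable {R : Type*} [DecidableEq R]

/-- Fibres of the restriction map along an injection. -/
lemma card_fiber {k z : ℕ} (φ : Fin k → Fin z) (hφ : Function.Injective φ) (Y : Finset R)
    (g : Fin k → R) (hg : ∀ i, g i ∈ Y) :
    ((Fintype.piFinset (fun _ : Fin z => Y)).filter (fun s => s ∘ φ = g)).card
      = Y.card ^ (z - k) := by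
  classical
  let t : Fin z → Finset R := fun a => if h : ∃ i, φ i = a then {g h.choose} else Y
  have e : (Fintype.piFinset (fun _ : Fin z => Y)).filter (fun s => s ∘ φ = g)
      = Fintype.piFinset t := by
    ext s
    simp only [mem_filter, Fintype.mem_piFinset, t]
    constructor
    · rintro ⟨h1, h2⟩ a
      split_ifs with h
      · have := h.choose_spec
        rw [mem_singleton, ← h2, Function.comp_apply, this]
      · exact h1 a
    · intro h
      have hi : ∀ i, s (φ i) = g i := by
        intro i
        have := h (φ i)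
        have hex : ∃ i', φ i' = φ i := ⟨i, rfl⟩
        rw [dif_pos hex, mem_singleton] at this
        rw [this]
        congr 1
        exact hφ hex.choose_spec
      refine ⟨fun a => ?_, ?_⟩
      · have := h a
        split_ifs at this with h'
        · rw [mem_singleton] at this
          rw [this]
          exact hg _
        · exact this
      · funext i
        exact hi i
  rw [e, Fintype.card_piFinset]
  have h1 : ∀ a, (t a).card = if (∃ i, φ i = a) then 1 else Y.card := by
    intro a
    by_cases h : ∃ i, φ i = a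
    · simp only [t, dif_pos h, if_pos h, card_singleton]
    · simp only [t, dif_neg h, if_neg h]
  simp_rw [h1]
  rw [prod_ite]
  simp only [prod_const_one, one_mul, prod_const]
  congr 1
  have h2 : (univ.filter (fun a => ¬ ∃ i, φ i = a)).card = z - k := by
    have h3 : (univ.filter (fun a => ¬ ∃ i, φ i = a)) = (univ.image φ)ᶜ := by
      ext a; simp
    rw [h3, card_compl, card_image_of_injective _ hφ]
    simp
  exact h2

/-- Pullback count along an injection. -/
lemma card_pullback {k z : ℕ} (φ : Fin k → Fin z) (hφ : Function.Injective φ) (Y : Finset R)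
    (G : Finset (Fin k → R)) (hG : ∀ g ∈ G, ∀ i, g i ∈ Y) :
    ((Fintype.piFinset (fun _ : Fin z => Y)).filter (fun s => s ∘ φ ∈ G)).card
      = G.card * Y.card ^ (z - k) := by
  classical
  have e : (Fintype.piFinset (fun _ : Fin z => Y)).filter (fun s => s ∘ φ ∈ G)
      = G.biUnion (fun g => (Fintype.piFinset (fun _ : Fin z => Y)).filter (fun s => s ∘ φ = g)) := by
    ext s
    simp only [mem_filter, mem_biUnion]
    constructor
    · rintro ⟨h1, h2⟩
      exact ⟨_, h2, h1, rfl⟩
    · rintro ⟨g, hg, h1, h2⟩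
      exact ⟨h1, h2 ▸ hg⟩
  rw [e, card_biUnion]
  · rw [sum_congr rfl (fun g hg => card_fiber φ hφ Y g (hG g hg))]
    simp
  · intro g _ g' _ hgg'
    refine disjoint_filter.2 (fun s _ h h' => hgg' (h ▸ h'))

end Count

section Sampling

variable {R C : Type*} [LinearOrder R] [LinearOrder C] [DecidableEq R] [DecidableEq C]

open scoped Classical in
/-- The strict row `k`-tuples in `Y` admitting a copy of `H` with columns in `T`. -/
noncomputable def goodTuples (A : R → C → Bool) {k : ℕ} (H : Fin k → Fin k → Bool)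
    (Y : Finset R) (T : Finset C) : Finset (Fin k → R) :=
  (Fintype.piFinset (fun _ : Fin k => Y)).filter (fun r => StrictMono r ∧
    ∃ c : Fin k → C, StrictMono c ∧ (∀ j, c j ∈ T) ∧ ∀ i j, A (r i) (c j) = H i j)

omit [LinearOrder R] [LinearOrder C] [DecidableEq C] in
/-- Number of colliding pairs. -/
lemma card_collide {β : Type*} [DecidableEq β] (τ : R → β) (Y : Finset R) (M : ℕ)
    (hclass : ∀ r ∈ Y, (Y.filter (fun r' => τ r' = τ r)).card ≤ M) :
    ((Fintype.piFinset (fun _ : Fin 2 => Y)).filter (fun g => τ (g 0) = τ (g 1))).card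
      ≤ Y.card * M := by
  classical
  have h : (Fintype.piFinset (fun _ : Fin 2 => Y)).filter (fun g => τ (g 0) = τ (g 1))
      ⊆ Y.biUnion (fun x => (Y.filter (fun y => τ y = τ x)).image (fun y => ![x, y])) := by
    intro g hg
    simp only [mem_filter, Fintype.mem_piFinset] at hg
    simp only [mem_biUnion, mem_image, mem_filter]
    refine ⟨g 0, hg.1 0, g 1, ⟨hg.1 1, hg.2.symm⟩, ?_⟩
    funext i
    fin_cases i <;> simp
  refine (card_le_card h).trans (card_biUnion_le.trans ?_)
  calc ∑ x ∈ Y, ((Y.filter (fun y => τ y = τ x)).image (fun y => ![x, y])).card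
      ≤ ∑ x ∈ Y, M := sum_le_sum (fun x hx => card_image_le.trans (hclass x hx))
    _ = Y.card * M := by simp

/-- Lemma 3 (sampling). -/
theorem sampling (A : R → C → Bool) {k D z : ℕ} (H : Fin k → Fin k → Bool) (hk : 0 < k)
    (hD : (2 * k) ^ k * ∑ j ∈ range k, D.choose j < 2 ^ D) (Y : Finset R) (T : Finset C)
    (hz : sauer D T.card < z)
    (hclass : ∀ r ∈ Y, 2 * z ^ 2 * (Y.filter (fun r' => traceOn A T r' = traceOn A T r)).card
      ≤ Y.card) :
    Y.card ^ k ≤ 2 * z ^ k * (goodTuples A H Y T).card := by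
  classical
  rcases Y.eq_empty_or_nonempty with rfl | hY
  · simp [hk.ne']
  have hYpos : 0 < Y.card := card_pos.2 hY
  have hzpos : 0 < z := by omega
  set Ω := Fintype.piFinset (fun _ : Fin z => Y) with hΩ
  have hΩcard : Ω.card = Y.card ^ z := by
    simp [hΩ, Fintype.card_piFinset]
  -- collisions
  set τ := traceOn A T with hτ
  set M := Y.card / (2 * z ^ 2) with hM
  have hclass' : ∀ r ∈ Y, (Y.filter (fun r' => τ r' = τ r)).card ≤ M := by
    intro r hr
    rw [hM, Nat.le_div_iff_mul_le (by positivity), mul_comm]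
    exact hclass r hr
  have hMle : 2 * z ^ 2 * M ≤ Y.card := Nat.mul_div_le _ _
  let Coll : Fin z → Fin z → Finset (Fin z → R) := fun a b => Ω.filter (fun s => τ (s a) = τ (s b))
  have hColl : ∀ a b, a ≠ b → (Coll a b).card * Y.card ^ 2 ≤ Y.card * M * Y.card ^ z := by
    intro a b hab
    let φ : Fin 2 → Fin z := ![a, b]
    have hφ : Function.Injective φ := by
      intro i j hij
      fin_cases i <;> fin_cases j <;> simp_all [φ]
    have hz2 : 2 ≤ z := by
      have := Fintype.card_le_of_injective φ hφ
      simpa using this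
    have h1 := card_pullback φ hφ Y
      ((Fintype.piFinset (fun _ : Fin 2 => Y)).filter (fun g => τ (g 0) = τ (g 1)))
      (fun g hg i => (Fintype.mem_piFinset.1 (mem_filter.1 hg).1) i)
    have h2 := card_collide τ Y M hclass'
    have h3 : Coll a b = (Fintype.piFinset (fun _ : Fin z => Y)).filter
        (fun s => s ∘ φ ∈ (Fintype.piFinset (fun _ : Fin 2 => Y)).filter
          (fun g => τ (g 0) = τ (g 1))) := by
      ext s
      simp only [Coll, hΩ, mem_filter, Fintype.mem_piFinset, Function.comp_apply, φ]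
      constructor
      · rintro ⟨h, h'⟩
        exact ⟨h, fun i => h _, by simpa using h'⟩
      · rintro ⟨h, -, h'⟩
        exact ⟨h, by simpa using h'⟩
    rw [h3, h1]
    have h4 : Y.card ^ (z - 2) * Y.card ^ 2 = Y.card ^ z := by
      rw [← pow_add]
      congr 1
      omega
    calc _ = ((Fintype.piFinset (fun _ : Fin 2 => Y)).filter (fun g => τ (g 0) = τ (g 1))).card
            * (Y.card ^ (z - 2) * Y.card ^ 2) := by ring
      _ ≤ Y.card * M * (Y.card ^ (z - 2) * Y.card ^ 2) := Nat.mul_le_mul_right _ h2
      _ = _ := by rw [h4]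
  -- total collisions
  let Bad : Finset (Fin z → R) := (univ : Finset (Fin z × Fin z)).filter (fun p => p.1 ≠ p.2)
    |>.biUnion (fun p => Coll p.1 p.2)
  have hBad : 2 * Bad.card * Y.card ≤ Y.card * Y.card ^ z := by
    have h1 : Bad.card * Y.card ^ 2 ≤ z ^ 2 * (Y.card * M * Y.card ^ z) := by
      calc Bad.card * Y.card ^ 2
          ≤ (∑ p ∈ (univ : Finset (Fin z × Fin z)).filter (fun p => p.1 ≠ p.2),
              (Coll p.1 p.2).card) * Y.card ^ 2 :=
            Nat.mul_le_mul_right _ card_biUnion_le
        _ = ∑ p ∈ (univ : Finset (Fin z × Fin z)).filter (fun p => p.1 ≠ p.2),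
              ((Coll p.1 p.2).card * Y.card ^ 2) := by rw [sum_mul]
        _ ≤ ∑ p ∈ (univ : Finset (Fin z × Fin z)).filter (fun p => p.1 ≠ p.2),
              (Y.card * M * Y.card ^ z) :=
            sum_le_sum (fun p hp => hColl p.1 p.2 (mem_filter.1 hp).2)
        _ = ((univ : Finset (Fin z × Fin z)).filter (fun p => p.1 ≠ p.2)).card
              * (Y.card * M * Y.card ^ z) := by simp
        _ ≤ z ^ 2 * (Y.card * M * Y.card ^ z) := by
            refine Nat.mul_le_mul_right _ ?_
            calc _ ≤ (univ : Finset (Fin z × Fin z)).card := card_le_card (filter_subset _ _)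
              _ = z ^ 2 := by simp [sq]
    have h2 : 2 * (z ^ 2 * (Y.card * M * Y.card ^ z)) ≤ Y.card * (Y.card * Y.card ^ z) := by
      calc 2 * (z ^ 2 * (Y.card * M * Y.card ^ z))
          = (2 * z ^ 2 * M) * (Y.card * Y.card ^ z) := by ring
        _ ≤ _ := Nat.mul_le_mul_right _ hMle
    have h3 : (2 * Bad.card * Y.card) * Y.card ≤ (Y.card * Y.card ^ z) * Y.card := by
      calc (2 * Bad.card * Y.card) * Y.card = 2 * (Bad.card * Y.card ^ 2) := by ring
        _ ≤ 2 * (z ^ 2 * (Y.card * M * Y.card ^ z)) := Nat.mul_le_mul_left _ h1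
        _ ≤ Y.card * (Y.card * Y.card ^ z) := h2
        _ = _ := by ring
    exact Nat.le_of_mul_le_mul_right h3 hYpos
  have hBad' : 2 * Bad.card ≤ Y.card ^ z := by
    have : (2 * Bad.card) * Y.card ≤ Y.card ^ z * Y.card := by
      calc (2 * Bad.card) * Y.card ≤ Y.card * Y.card ^ z := hBad
        _ = _ := by ring
    exact Nat.le_of_mul_le_mul_right this hYpos
  -- good samples contain a good tuple
  let Phi : Finset (Fin k → Fin z) := univ.filter Function.Injective
  have hgood : Ω \ Bad ⊆ Phi.biUnion (fun φ => Ω.filter (fun s => s ∘ φ ∈ goodTuples A H Y T)) := by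
    intro s hs
    obtain ⟨hsΩ, hsB⟩ := mem_sdiff.1 hs
    have hinj : Function.Injective (fun a => τ (s a)) := by
      intro a b hab
      by_contra hne
      apply hsB
      simp only [Bad, mem_biUnion, mem_filter, mem_univ, true_and]
      exact ⟨(a, b), hne, mem_filter.2 ⟨hsΩ, hab⟩⟩
    have hsY : ∀ a, s a ∈ Y := Fintype.mem_piFinset.1 hsΩ
    have hcard : z = ((univ.image s).image τ).card := by
      rw [image_image, card_image_of_injective _ (show Function.Injective (τ ∘ s) from hinj)]
      simp
    have htr : sauer D T.card < ((univ.image s).image (traceOn A T)).card := by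
      rw [← hτ, ← hcard]
      exact hz
    obtain ⟨r, c, hr, hc, hrY, hcT, hcopy⟩ := copy_of_traces A H hk hD (univ.image s) T htr
    have hex : ∀ i, ∃ a, s a = r i := by
      intro i
      obtain ⟨a, -, ha⟩ := mem_image.1 (hrY i)
      exact ⟨a, ha⟩
    choose φ hφ using hex
    have hφinj : Function.Injective φ := by
      intro i j hij
      apply hr.injective
      rw [← hφ, ← hφ, hij]
    simp only [mem_biUnion, mem_filter]
    refine ⟨φ, by simp [Phi, hφinj], hsΩ, ?_⟩
    have hsφ : s ∘ φ = r := funext hφ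
    rw [hsφ]
    simp only [goodTuples, mem_filter, Fintype.mem_piFinset]
    refine ⟨fun i => ?_, hr, c, hc, hcT, hcopy⟩
    rw [← hφ]
    exact hsY _
  have h5 : Ω.card ≤ (Ω \ Bad).card + Bad.card := by
    have := card_sdiff_add_card_inter Ω Bad
    have h' : (Ω ∩ Bad).card ≤ Bad.card := card_le_card inter_subset_right
    omega
  have h6 : (Ω \ Bad).card ≤ ∑ φ ∈ Phi, (Ω.filter (fun s => s ∘ φ ∈ goodTuples A H Y T)).card :=
    (card_le_card hgood).trans card_biUnion_le
  have hgt : ∀ g ∈ goodTuples A H Y T, ∀ i, g i ∈ Y := by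
    intro g hg i
    simp only [goodTuples, mem_filter, Fintype.mem_piFinset] at hg
    exact hg.1 i
  have h7 : ∑ φ ∈ Phi, (Ω.filter (fun s => s ∘ φ ∈ goodTuples A H Y T)).card
      = Phi.card * ((goodTuples A H Y T).card * Y.card ^ (z - k)) := by
    rw [sum_congr rfl (fun φ hφ => card_pullback φ (mem_filter.1 hφ).2 Y _ hgt)]
    simp only [sum_const, smul_eq_mul]
    rfl
  have hPhi : Phi.card ≤ z ^ k := by
    calc Phi.card ≤ (univ : Finset (Fin k → Fin z)).card := card_le_card (filter_subset _ _)
      _ = z ^ k := by simp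
  -- conclude
  have h8 : Y.card ^ z ≤ 2 * (z ^ k * ((goodTuples A H Y T).card * Y.card ^ (z - k))) := by
    have h9 : (Ω \ Bad).card ≤ z ^ k * ((goodTuples A H Y T).card * Y.card ^ (z - k)) := by
      rw [h7] at h6
      exact h6.trans (Nat.mul_le_mul_right _ hPhi)
    rw [hΩcard] at h5
    omega
  by_cases hkz : k ≤ z
  · have h10 : Y.card ^ z = Y.card ^ k * Y.card ^ (z - k) := by
      rw [← pow_add]
      congr 1
      omega
    rw [h10] at h8
    have hp : 0 < Y.card ^ (z - k) := by positivity
    have h11 : Y.card ^ k * Y.card ^ (z - k) ≤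
        (2 * z ^ k * (goodTuples A H Y T).card) * Y.card ^ (z - k) := by
      calc _ ≤ _ := h8
        _ = _ := by ring
    exact Nat.le_of_mul_le_mul_right h11 hp
  · -- no injections: then `Phi` is empty, contradiction with positivity
    have hPhi0 : Phi = ∅ := by
      refine filter_eq_empty_iff.2 (fun φ _ hφ => hkz ?_)
      simpa using Fintype.card_le_of_injective φ hφ
    have h12 : (Ω \ Bad).card = 0 := by
      rw [hPhi0] at h6
      simpa using h6
    have h13 : 0 < Y.card ^ z := by positivity
    omega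

end Sampling

end Vale.Agent.Lib.P037D
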