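import Vale.Agent.Lib.P037D.StepD
import Vale.Agent.Lib.P037D.Shatter

/-! Step A of the P037 double-exponential blueprint: column classes from a row sample. -/

namespace Vale.Agent.Lib.P037D

open Finset

variable {n k : ℕ}

/-- Hamming distance between two columns. -/
def ham (A : Fin n → Fin n → Bool) (c c' : Fin n) : ℕ :=
  (univ.filter (fun r => A r c ≠ A r c')).card

lemma ham_comm (A : Fin n → Fin n → Bool) (c c' : Fin n) : ham A c c' = ham A c' c := by
  unfold ham
  congr 1
  ext r
  simp [eq_comm]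

lemma ham_triangle (A : Fin n → Fin n → Bool) (c x c' : Fin n) :
    ham A c c' ≤ ham A x c + ham A x c' := by
  unfold ham
  refine le_trans (card_le_card ?_) (card_union_le _ _)
  intro r hr
  simp only [mem_filter, mem_univ, true_and, mem_union] at hr ⊢
  by_contra hcon
  push Not at hcon
  exact hr (hcon.1.symm.trans hcon.2)

/-- The strict column tuples admitting a copy with rows in the sample. -/
noncomputable def goodCols (A : Fin n → Fin n → Bool) (H : Fin k → Fin k → Bool) {t : ℕ}
    (S : Fin t → Fin n) : Finset (Fin k → Fin n) :=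
  goodTuples (fun c r => A r c) (fun j i => H i j) univ (univ.image S)

lemma goodCols_subset (A : Fin n → Fin n → Bool) (H : Fin k → Fin k → Bool) {t : ℕ}
    (S : Fin t → Fin n) :
    goodCols A H S ⊆ (univ.filter (Function.Injective : (Fin k → Fin t) → Prop)).biUnion
      (fun φ => univ.filter (fun c => (S ∘ φ, c) ∈ Copies A H)) := by
  classical
  intro c hc
  simp only [goodCols, goodTuples, mem_filter, Fintype.mem_piFinset, mem_univ, implies_true,
    true_and] at hc
  obtain ⟨hcs, r, hr, hrT, hcopy⟩ := hc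
  have hex : ∀ i, ∃ a, S a = r i := by
    intro i
    obtain ⟨a, -, ha⟩ := mem_image.1 (hrT i)
    exact ⟨a, ha⟩
  choose φ hφ using hex
  have hφinj : Function.Injective φ := by
    intro i j hij
    apply hr.injective
    rw [← hφ, ← hφ, hij]
  have hSφ : S ∘ φ = r := funext hφ
  simp only [mem_biUnion, mem_filter, mem_univ, true_and]
  refine ⟨φ, hφinj, ?_⟩
  rw [hSφ]
  simp only [Copies, mem_filter, mem_univ, true_and]
  exact ⟨hr, hcs, fun i j => hcopy j i⟩

lemma sum_fiber_copies (A : Fin n → Fin n → Bool) (H : Fin k → Fin k → Bool) {t : ℕ}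
    (φ : Fin k → Fin t) (hφ : Function.Injective φ) :
    ∑ S : Fin t → Fin n, (univ.filter (fun c => (S ∘ φ, c) ∈ Copies A H)).card
      = (Copies A H).card * n ^ (t - k) := by
  classical
  simp_rw [card_filter]
  rw [sum_comm]
  have h1 : ∀ c : Fin k → Fin n,
      ∑ S : Fin t → Fin n, (if (S ∘ φ, c) ∈ Copies A H then 1 else 0)
        = (univ.filter (fun r => (r, c) ∈ Copies A H)).card * n ^ (t - k) := by
    intro c
    have h2 := card_pullback φ hφ (univ : Finset (Fin n))
      (univ.filter (fun r => (r, c) ∈ Copies A H)) (by simp)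
    rw [← card_filter]
    simp only [Fintype.piFinset_univ, mem_filter, mem_univ, true_and, card_univ,
      Fintype.card_fin] at h2
    exact h2
  simp_rw [h1]
  rw [← sum_mul]
  congr 1
  simp_rw [card_filter]
  rw [sum_comm, ← Fintype.sum_prod_type', ← card_filter]
  simp

lemma sum_goodCols (A : Fin n → Fin n → Bool) (H : Fin k → Fin k → Bool) {t : ℕ} :
    (∑ S : Fin t → Fin n, (goodCols A H S).card) * n ^ k ≤ t ^ k * n ^ t * (Copies A H).card := by
  classical
  set Φ : Finset (Fin k → Fin t) := univ.filter Function.Injective with hΦ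
  have h1 : ∀ S : Fin t → Fin n, (goodCols A H S).card ≤
      ∑ φ ∈ Φ, (univ.filter (fun c => (S ∘ φ, c) ∈ Copies A H)).card := fun S =>
    (card_le_card (goodCols_subset A H S)).trans card_biUnion_le
  have h2 : ∑ S : Fin t → Fin n, (goodCols A H S).card ≤
      ∑ φ ∈ Φ, (Copies A H).card * n ^ (t - k) := by
    calc _ ≤ ∑ S : Fin t → Fin n, ∑ φ ∈ Φ, (univ.filter (fun c => (S ∘ φ, c) ∈ Copies A H)).card :=
          sum_le_sum fun S _ => h1 S
      _ = ∑ φ ∈ Φ, ∑ S : Fin t → Fin n, (univ.filter (fun c => (S ∘ φ, c) ∈ Copies A H)).card :=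
          sum_comm
      _ = _ := sum_congr rfl fun φ hφ => sum_fiber_copies A H φ (mem_filter.1 hφ).2
  by_cases hΦe : Φ = ∅
  · rw [hΦe] at h2
    simp only [sum_empty, nonpos_iff_eq_zero] at h2
    rw [h2]
    simp
  · obtain ⟨φ, hφ⟩ := nonempty_iff_ne_empty.2 hΦe
    have hkt : k ≤ t := by
      have := Fintype.card_le_of_injective φ (mem_filter.1 hφ).2
      simpa using this
    have hcard : Φ.card ≤ t ^ k := by
      calc Φ.card ≤ (univ : Finset (Fin k → Fin t)).card := card_le_card (filter_subset _ _)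
        _ = t ^ k := by simp
    rw [sum_const, smul_eq_mul] at h2
    calc _ ≤ (Φ.card * ((Copies A H).card * n ^ (t - k))) * n ^ k := Nat.mul_le_mul_right _ h2
      _ = Φ.card * (Copies A H).card * (n ^ (t - k) * n ^ k) := by ring
      _ = Φ.card * (Copies A H).card * n ^ t := by
          rw [← pow_add]; congr 2; omega
      _ ≤ t ^ k * (Copies A H).card * n ^ t := by gcongr
      _ = _ := by ring

/-- The pairs of far columns with the same trace on the sample. -/
noncomputable def farPairs (A : Fin n → Fin n → Bool) (R : ℕ) {t : ℕ} (S : Fin t → Fin n) :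
    Finset (Fin n × Fin n) :=
  univ.filter (fun p => n ≤ R * ham A p.1 p.2 ∧ ∀ i, A (S i) p.1 = A (S i) p.2)

lemma card_agree (A : Fin n → Fin n → Bool) {t : ℕ} (c c' : Fin n) :
    ((univ : Finset (Fin t → Fin n)).filter (fun S => ∀ i, A (S i) c = A (S i) c')).card
      = (n - ham A c c') ^ t := by
  classical
  have e : (univ : Finset (Fin t → Fin n)).filter (fun S => ∀ i, A (S i) c = A (S i) c')
      = Fintype.piFinset (fun _ : Fin t => univ.filter (fun r => A r c = A r c')) := by
    ext S
    simp [Fintype.mem_piFinset]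
  rw [e, Fintype.card_piFinset]
  simp only [prod_const, card_univ, Fintype.card_fin]
  congr 1
  have h := card_filter_add_card_filter_not (s := (univ : Finset (Fin n)))
    (fun r => A r c = A r c')
  simp only [card_univ, Fintype.card_fin] at h
  have h2 : ham A c c' = (univ.filter (fun r => ¬ A r c = A r c')).card := by
    unfold ham
    simp only [ne_eq]
  omega

lemma sum_farPairs (A : Fin n → Fin n → Bool) {R : ℕ} (hR : 0 < R) {t : ℕ} :
    ((∑ S : Fin t → Fin n, (farPairs A R S).card : ℕ) : ℝ) ≤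
      (n : ℝ) ^ 2 * ((n : ℝ) * (((R : ℝ) - 1) / R)) ^ t := by
  classical
  have hRR : (0 : ℝ) < R := by exact_mod_cast hR
  have hR1 : (0 : ℝ) ≤ ((R : ℝ) - 1) / R := by
    have : (1 : ℝ) ≤ R := by exact_mod_cast hR
    apply div_nonneg <;> linarith
  simp only [farPairs]
  simp_rw [card_filter]
  rw [sum_comm]
  have hbound : ∀ p : Fin n × Fin n,
      (((∑ S : Fin t → Fin n, if (n ≤ R * ham A p.1 p.2 ∧ ∀ i, A (S i) p.1 = A (S i) p.2)
          then 1 else 0 : ℕ)) : ℝ) ≤ ((n : ℝ) * (((R : ℝ) - 1) / R)) ^ t := by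
    intro p
    by_cases hfar : n ≤ R * ham A p.1 p.2
    · simp only [hfar, true_and]
      rw [← card_filter, card_agree]
      push_cast
      have hle : ham A p.1 p.2 ≤ n := by
        unfold ham
        calc _ ≤ (univ : Finset (Fin n)).card := card_le_card (filter_subset _ _)
          _ = n := by simp
      rw [Nat.cast_sub hle]
      apply pow_le_pow_left₀
      · have : ((ham A p.1 p.2 : ℕ) : ℝ) ≤ n := by exact_mod_cast hle
        linarith
      · have h1 : (n : ℝ) ≤ R * ham A p.1 p.2 := by exact_mod_cast hfar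
        rw [mul_div_assoc', le_div_iff₀ hRR]
        nlinarith
    · simp only [hfar, false_and, if_false, sum_const_zero, Nat.cast_zero]
      positivity
  have hsum : (((∑ p : Fin n × Fin n, ∑ S : Fin t → Fin n,
      if (n ≤ R * ham A p.1 p.2 ∧ ∀ i, A (S i) p.1 = A (S i) p.2) then 1 else 0 : ℕ)) : ℝ)
      ≤ ∑ _p : Fin n × Fin n, ((n : ℝ) * (((R : ℝ) - 1) / R)) ^ t := by
    rw [Nat.cast_sum]
    exact sum_le_sum fun p _ => hbound p
  refine hsum.trans (le_of_eq ?_)
  simp [sq]

/-- Markov's inequality in the form used for the sample. -/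
lemma markov_half {Ω : Type*} [Fintype Ω] [Nonempty Ω] (f : Ω → ℝ) (hf : ∀ ω, 0 ≤ f ω) (X : ℝ)
    (hX : 0 ≤ X) (hsum : ∑ ω, f ω ≤ Fintype.card Ω * X) :
    2 * (univ.filter (fun ω => 2 * X < f ω)).card < Fintype.card Ω := by
  classical
  set G := univ.filter (fun ω => 2 * X < f ω) with hG
  have hpos : 0 < Fintype.card Ω := Fintype.card_pos
  by_cases hne : G.Nonempty
  · have h1 : G.card • (2 * X) < ∑ ω ∈ G, f ω := by
      have := sum_lt_sum_of_nonempty hne (fun ω hω => (mem_filter.1 hω).2)
      simpa using this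
    have h2 : ∑ ω ∈ G, f ω ≤ ∑ ω, f ω :=
      sum_le_sum_of_subset_of_nonneg (subset_univ _) fun ω _ _ => hf ω
    have h3 : (G.card : ℝ) * (2 * X) < Fintype.card Ω * X := by
      have := lt_of_lt_of_le h1 (h2.trans hsum)
      simpa using this
    by_cases hX0 : X = 0
    · exfalso
      subst hX0
      have h4 : ∑ ω, f ω ≤ 0 := by simpa using hsum
      have h5 : ∀ ω, f ω = 0 := fun ω => by
        have := (sum_eq_zero_iff_of_nonneg (fun ω _ => hf ω)).1
          (le_antisymm h4 (sum_nonneg fun ω _ => hf ω)) ω (mem_univ _)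
        exact this
      obtain ⟨ω, hω⟩ := hne
      have := (mem_filter.1 hω).2
      rw [h5] at this
      simp at this
    · have hXpos : 0 < X := lt_of_le_of_ne hX (Ne.symm hX0)
      have h6 : (G.card : ℝ) * 2 < Fintype.card Ω := by
        by_contra hcon
        push Not at hcon
        nlinarith
      have h7 : ((2 * G.card : ℕ) : ℝ) < Fintype.card Ω := by
        push_cast
        linarith
      exact_mod_cast h7
  · rw [not_nonempty_iff_eq_empty] at hne
    simp [hne, hpos]

/-- Existence of the row sample. -/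
lemma exists_sample (A : Fin n → Fin n → Bool) (H : Fin k → Fin k → Bool) {R t : ℕ}
    (hR : 0 < R) (hn : 0 < n) :
    ∃ S : Fin t → Fin n,
      (goodCols A H S).card * n ^ k ≤ 2 * (t ^ k * (Copies A H).card) ∧
      ((farPairs A R S).card : ℝ) ≤ 2 * ((n : ℝ) ^ 2 * (((R : ℝ) - 1) / R) ^ t) := by
  classical
  have : Nonempty (Fin n) := ⟨⟨0, hn⟩⟩
  have hnR : (0 : ℝ) < n := by exact_mod_cast hn
  have hR1 : (0 : ℝ) ≤ ((R : ℝ) - 1) / R := by
    have : (1 : ℝ) ≤ R := by exact_mod_cast hR
    apply div_nonneg <;> linarith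
  set X : ℝ := ((t : ℝ) ^ k * (Copies A H).card) / (n : ℝ) ^ k with hX
  set Y : ℝ := (n : ℝ) ^ 2 * (((R : ℝ) - 1) / R) ^ t with hY
  have hXnn : 0 ≤ X := by positivity
  have hYnn : 0 ≤ Y := by positivity
  have hcard : (Fintype.card (Fin t → Fin n) : ℝ) = (n : ℝ) ^ t := by simp
  have h1 := markov_half (Ω := Fin t → Fin n) (fun S => ((goodCols A H S).card : ℝ))
    (fun _ => by positivity) X hXnn (by
      have h := sum_goodCols A H (t := t)
      have h' : ((∑ S : Fin t → Fin n, (goodCols A H S).card : ℕ) : ℝ) * (n : ℝ) ^ k ≤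
          (t : ℝ) ^ k * (n : ℝ) ^ t * (Copies A H).card := by exact_mod_cast h
      rw [hcard, ← Nat.cast_sum, hX, mul_div_assoc', le_div_iff₀ (by positivity)]
      linarith)
  have h2 := markov_half (Ω := Fin t → Fin n) (fun S => ((farPairs A R S).card : ℝ))
    (fun _ => by positivity) Y hYnn (by
      have h := sum_farPairs A hR (t := t)
      rw [hcard, ← Nat.cast_sum]
      refine h.trans (le_of_eq ?_)
      rw [hY, mul_pow]
      ring)
  have h3 : (univ.filter (fun S : Fin t → Fin n => 2 * X < ((goodCols A H S).card : ℝ))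
      ∪ univ.filter (fun S : Fin t → Fin n => 2 * Y < ((farPairs A R S).card : ℝ))).card
      < (univ : Finset (Fin t → Fin n)).card := by
    have := card_union_le (univ.filter (fun S : Fin t → Fin n => 2 * X < ((goodCols A H S).card : ℝ)))
      (univ.filter (fun S : Fin t → Fin n => 2 * Y < ((farPairs A R S).card : ℝ)))
    rw [card_univ]
    omega
  obtain ⟨S, -, hS⟩ := exists_mem_notMem_of_card_lt_card h3
  simp only [mem_union, mem_filter, mem_univ, true_and, not_or, not_lt] at hS
  refine ⟨S, ?_, hS.2⟩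
  have h4 : ((goodCols A H S).card : ℝ) * (n : ℝ) ^ k ≤ 2 * ((t : ℝ) ^ k * (Copies A H).card) := by
    have h5 := hS.1
    rw [hX, mul_div_assoc', le_div_iff₀ (by positivity)] at h5
    exact h5
  exact_mod_cast h4

lemma sauer_mono (D : ℕ) {a b : ℕ} (h : a ≤ b) : sauer D a ≤ sauer D b :=
  sum_le_sum fun _ _ => Nat.choose_le_choose _ h

/-- Step A: the column classes. -/
theorem classes {t z D E R V : ℕ} (A : Fin n → Fin n → Bool) (H : Fin k → Fin k → Bool)
    (hk : 0 < k) (hD : (2 * k) ^ k * ∑ j ∈ range k, D.choose j < 2 ^ D) (hz : sauer D t < z)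
    (hE : 0 < E) (hR : 0 < R) (hV : V = 2 * z ^ 2 * E)
    (hN : 4 * (z * E * t) ^ k * (Copies A H).card < n ^ (2 * k))
    (hfar : 2 * (V : ℝ) * E * (((R : ℝ) - 1) / R) ^ t ≤ 1) :
    ∃ cl : Fin n → Fin (V + 1), (univ.filter (fun c => cl c = 0)).card * E ≤ 2 * n ∧
      ∀ c c', cl c = cl c' → cl c ≠ 0 → ham A c c' * R ≤ 2 * n := by
  classical
  have hn : 0 < n := by
    rcases Nat.eq_zero_or_pos n with h0 | h0
    · subst h0
      have : 2 * k ≠ 0 := by omega
      simp [this] at hN
    · exact h0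
  obtain ⟨S, hS1, hS2⟩ := exists_sample A H (R := R) (t := t) hR hn
  set T := (univ : Finset (Fin t)).image S with hT
  set τ := traceOn (fun c r => A r c) T with hτ
  have hTS : ∀ i, S i ∈ T := fun i => mem_image_of_mem S (mem_univ i)
  have hτeq : ∀ c c', τ c = τ c' ↔ ∀ i, A (S i) c = A (S i) c' := by
    intro c c'
    constructor
    · intro h i
      have h1 : S i ∈ τ c ↔ S i ∈ τ c' := by rw [h]
      simp only [hτ, traceOn, mem_filter, hTS i, true_and] at h1
      exact Bool.eq_iff_iff.mpr h1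
    · intro h
      ext r
      simp only [hτ, traceOn, mem_filter]
      constructor
      · rintro ⟨hr, h1⟩
        obtain ⟨i, -, rfl⟩ := mem_image.1 hr
        exact ⟨hr, (h i) ▸ h1⟩
      · rintro ⟨hr, h1⟩
        obtain ⟨i, -, rfl⟩ := mem_image.1 hr
        exact ⟨hr, (h i).symm ▸ h1⟩
  let W : Finset (Fin n) → Finset (Fin n) := fun q => univ.filter (fun c => τ c = q)
  have hWmem : ∀ q c, c ∈ W q ↔ τ c = q := fun q c => by simp [W]
  let L : Finset (Fin n) := univ.filter (fun c => V * (W (τ c)).card < n)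
  have hLmem : ∀ c, c ∈ L ↔ V * (W (τ c)).card < n := fun c => by simp [L]
  -- few light columns
  have hL : L.card * E ≤ n := by
    by_contra hcon
    push Not at hcon
    have hz' : sauer D T.card < z := lt_of_le_of_lt (sauer_mono D (by
      calc T.card ≤ (univ : Finset (Fin t)).card := card_image_le
        _ = t := by simp)) hz
    have hsamp := sampling (fun c r => A r c) (fun j i => H i j) hk hD L T hz' (by
      intro r hr
      have h1 : (L.filter (fun r' => traceOn (fun c r => A r c) T r' = traceOn (fun c r => A r c) T r)).card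
          ≤ (W (τ r)).card := by
        refine card_le_card fun x hx => ?_
        rw [hWmem]
        exact (mem_filter.1 hx).2
      have h2 := (hLmem r).1 hr
      have h3 : (2 * z ^ 2 * (W (τ r)).card) * E < L.card * E := by
        calc (2 * z ^ 2 * (W (τ r)).card) * E = V * (W (τ r)).card := by rw [hV]; ring
          _ < n := h2
          _ < L.card * E := hcon
      have h4 := Nat.lt_of_mul_lt_mul_right h3
      calc _ ≤ 2 * z ^ 2 * (W (τ r)).card := Nat.mul_le_mul_left _ h1
        _ ≤ L.card := h4.le)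
    have hsub : goodTuples (fun c r => A r c) (fun j i => H i j) L T ⊆ goodCols A H S := by
      intro c hc
      simp only [goodTuples, mem_filter, Fintype.mem_piFinset] at hc
      simp only [goodCols, goodTuples, mem_filter, Fintype.mem_piFinset, mem_univ, implies_true,
        true_and]
      exact hc.2
    have hsamp' : L.card ^ k ≤ 2 * z ^ k * (goodCols A H S).card :=
      hsamp.trans (Nat.mul_le_mul_left _ (card_le_card hsub))
    have h5 : n ^ k ≤ L.card ^ k * E ^ k := by
      rw [← mul_pow]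
      exact Nat.pow_le_pow_left hcon.le k
    have h6 : n ^ (2 * k) ≤ 4 * (z * E * t) ^ k * (Copies A H).card := by
      calc n ^ (2 * k) = n ^ k * n ^ k := by rw [two_mul, pow_add]
        _ ≤ (L.card ^ k * E ^ k) * n ^ k := Nat.mul_le_mul_right _ h5
        _ ≤ ((2 * z ^ k * (goodCols A H S).card) * E ^ k) * n ^ k := by gcongr
        _ = 2 * z ^ k * E ^ k * ((goodCols A H S).card * n ^ k) := by ring
        _ ≤ 2 * z ^ k * E ^ k * (2 * (t ^ k * (Copies A H).card)) := Nat.mul_le_mul_left _ hS1
        _ = _ := by rw [mul_pow, mul_pow]; ring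
    omega
  -- the heavy traces
  let Q : Finset (Finset (Fin n)) := (univ.filter (fun c => c ∉ L)).image τ
  have hQheavy : ∀ q ∈ Q, n ≤ V * (W q).card := by
    intro q hq
    obtain ⟨c, hc, rfl⟩ := mem_image.1 hq
    have := (hLmem c).not.1 (mem_filter.1 hc).2
    omega
  have hQne : ∀ q ∈ Q, (W q).Nonempty := by
    intro q hq
    obtain ⟨c, -, rfl⟩ := mem_image.1 hq
    exact ⟨c, (hWmem _ _).2 rfl⟩
  have hWdisj : ∀ q ∈ Q, ∀ q' ∈ Q, q ≠ q' → Disjoint (W q) (W q') := by
    intro q _ q' _ hne
    refine disjoint_left.2 fun c h1 h2 => hne ?_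
    rw [← (hWmem _ _).1 h1, ← (hWmem _ _).1 h2]
  have hQV : Q.card ≤ V := by
    have h1 : Q.card * n ≤ V * n := by
      calc Q.card * n = ∑ _q ∈ Q, n := by simp
        _ ≤ ∑ q ∈ Q, V * (W q).card := sum_le_sum hQheavy
        _ = V * ∑ q ∈ Q, (W q).card := by rw [mul_sum]
        _ = V * (Q.biUnion W).card := by rw [card_biUnion hWdisj]
        _ ≤ V * n := by
            refine Nat.mul_le_mul_left _ ?_
            calc (Q.biUnion W).card ≤ (univ : Finset (Fin n)).card := card_le_card (subset_univ _)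
              _ = n := by simp
    exact Nat.le_of_mul_le_mul_right h1 hn
  -- far partners
  let fp : Fin n → ℕ := fun c => (univ.filter (fun c' => τ c' = τ c ∧ n ≤ R * ham A c c')).card
  have hfp : ∑ c, fp c = (farPairs A R S).card := by
    simp only [farPairs, fp]
    simp_rw [card_filter]
    rw [Fintype.sum_prod_type]
    refine sum_congr rfl fun c _ => sum_congr rfl fun c' _ => ?_
    have h1 : (τ c' = τ c ∧ n ≤ R * ham A c c') ↔
        (n ≤ R * ham A c c' ∧ ∀ i, A (S i) c = A (S i) c') := by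
      rw [eq_comm, hτeq]
      tauto
    simp only [h1]
  have hcenter : ∀ q ∈ Q, ∃ x ∈ W q, ∀ y ∈ W q, fp x ≤ fp y := fun q hq =>
    exists_min_image (W q) fp (hQne q hq)
  have hne : Nonempty (Fin n) := ⟨⟨0, hn⟩⟩
  choose! x hxW hxmin using hcenter
  let J : Finset (Fin n) := Q.biUnion (fun q => (W q).filter (fun c' => n ≤ R * ham A (x q) c'))
  have hJmem : ∀ c, c ∈ J ↔ ∃ q ∈ Q, c ∈ W q ∧ n ≤ R * ham A (x q) c := fun c => by simp [J]
  have hJ : n * J.card ≤ V * (farPairs A R S).card := by
    have h1 : ∀ q ∈ Q, n * ((W q).filter (fun c' => n ≤ R * ham A (x q) c')).card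
        ≤ V * ∑ y ∈ W q, fp y := by
      intro q hq
      have h2 : ((W q).filter (fun c' => n ≤ R * ham A (x q) c')).card ≤ fp (x q) := by
        refine card_le_card fun c hc => ?_
        obtain ⟨h3, h4⟩ := mem_filter.1 hc
        simp only [mem_filter, mem_univ, true_and]
        refine ⟨?_, h4⟩
        rw [(hWmem _ _).1 h3, (hWmem _ _).1 (hxW q hq)]
      have h5 : (W q).card * fp (x q) ≤ ∑ y ∈ W q, fp y := by
        have := card_nsmul_le_sum (W q) fp (fp (x q)) (hxmin q hq)
        simpa using this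
      calc _ ≤ n * fp (x q) := Nat.mul_le_mul_left _ h2
        _ ≤ (V * (W q).card) * fp (x q) := Nat.mul_le_mul_right _ (hQheavy q hq)
        _ = V * ((W q).card * fp (x q)) := by ring
        _ ≤ _ := Nat.mul_le_mul_left _ h5
    calc n * J.card ≤ n * ∑ q ∈ Q, ((W q).filter (fun c' => n ≤ R * ham A (x q) c')).card :=
          Nat.mul_le_mul_left _ card_biUnion_le
      _ = ∑ q ∈ Q, n * ((W q).filter (fun c' => n ≤ R * ham A (x q) c')).card := by rw [mul_sum]
      _ ≤ ∑ q ∈ Q, V * ∑ y ∈ W q, fp y := sum_le_sum h1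
      _ = V * ∑ y ∈ Q.biUnion W, fp y := by rw [sum_biUnion hWdisj, mul_sum]
      _ ≤ V * ∑ y, fp y := by
          refine Nat.mul_le_mul_left _ ?_
          exact sum_le_sum_of_subset (subset_univ _)
      _ = _ := by rw [hfp]
  have hJE : J.card * E ≤ n := by
    have hnR : (0 : ℝ) < n := by exact_mod_cast hn
    have h1 : (n : ℝ) * J.card ≤ V * (farPairs A R S).card := by exact_mod_cast hJ
    have h2 : (n : ℝ) * J.card ≤ V * (2 * ((n : ℝ) ^ 2 * (((R : ℝ) - 1) / R) ^ t)) :=
      h1.trans (by gcongr)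
    have h3 : (J.card : ℝ) ≤ V * (2 * ((n : ℝ) * (((R : ℝ) - 1) / R) ^ t)) := by
      refine le_of_mul_le_mul_left ?_ hnR
      calc _ ≤ _ := h2
        _ = _ := by ring
    have h4 : (J.card : ℝ) * E ≤ n := by
      calc (J.card : ℝ) * E ≤ (V * (2 * ((n : ℝ) * (((R : ℝ) - 1) / R) ^ t))) * E := by gcongr
        _ = (2 * (V : ℝ) * E * (((R : ℝ) - 1) / R) ^ t) * n := by ring
        _ ≤ 1 * n := by gcongr
        _ = n := one_mul _
    exact_mod_cast h4
  -- labels
  obtain ⟨idx, hidx0, hidxinj⟩ : ∃ idx : Finset (Fin n) → Fin (V + 1),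
      (∀ q ∈ Q, idx q ≠ 0) ∧ ∀ q ∈ Q, ∀ q' ∈ Q, idx q = idx q' → q = q' := by
    let e := Q.equivFin
    refine ⟨fun q => if h : q ∈ Q then Fin.succ (Fin.castLE hQV (e ⟨q, h⟩)) else 0, ?_, ?_⟩
    · intro q hq
      simp only [hq, dif_pos]
      exact Fin.succ_ne_zero _
    · intro q hq q' hq' h
      simp only [hq, hq', dif_pos] at h
      have h1 := Fin.succ_injective _ h
      have h2 := Fin.castLE_injective hQV h1
      have h3 := e.injective h2
      exact congrArg Subtype.val h3
  refine ⟨fun c => if c ∈ L ∨ c ∈ J then 0 else idx (τ c), ?_, ?_⟩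
  · have hsub : univ.filter (fun c => (if c ∈ L ∨ c ∈ J then 0 else idx (τ c)) = 0) ⊆ L ∪ J := by
      intro c hc
      have hc' := (mem_filter.1 hc).2
      by_contra hcon
      rw [mem_union] at hcon
      rw [if_neg hcon] at hc'
      have hcL : c ∉ L := fun h => hcon (Or.inl h)
      exact hidx0 (τ c) (mem_image_of_mem τ (by simp [hcL])) hc'
    calc _ ≤ (L ∪ J).card * E := Nat.mul_le_mul_right _ (card_le_card hsub)
      _ ≤ (L.card + J.card) * E := Nat.mul_le_mul_right _ (card_union_le _ _)
      _ = L.card * E + J.card * E := by ring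
      _ ≤ n + n := add_le_add hL hJE
      _ = 2 * n := by ring
  · intro c c' hcc' hc0
    have hc : ¬ (c ∈ L ∨ c ∈ J) := by
      intro h
      simp only [if_pos h] at hc0
      exact hc0 rfl
    have hc' : ¬ (c' ∈ L ∨ c' ∈ J) := by
      intro h
      simp only [if_pos h, if_neg hc] at hcc'
      apply hc0
      simp only [if_neg hc]
      exact hcc'
    simp only [if_neg hc, if_neg hc'] at hcc'
    have hcL : c ∉ L := fun h => hc (Or.inl h)
    have hcL' : c' ∉ L := fun h => hc' (Or.inl h)
    have hcJ : c ∉ J := fun h => hc (Or.inr h)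
    have hcJ' : c' ∉ J := fun h => hc' (Or.inr h)
    have hqc : τ c ∈ Q := mem_image_of_mem τ (by simp [hcL])
    have hqc' : τ c' ∈ Q := mem_image_of_mem τ (by simp [hcL'])
    have hq : τ c = τ c' := hidxinj _ hqc _ hqc' hcc'
    have h1 : R * ham A (x (τ c)) c < n := by
      by_contra hcon
      exact hcJ ((hJmem c).2 ⟨τ c, hqc, (hWmem _ _).2 rfl, not_lt.1 hcon⟩)
    have h2 : R * ham A (x (τ c)) c' < n := by
      by_contra hcon
      exact hcJ' ((hJmem c').2 ⟨τ c, hqc, (hWmem _ _).2 hq.symm, not_lt.1 hcon⟩)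
    have h3 := ham_triangle A c (x (τ c)) c'
    calc ham A c c' * R ≤ (ham A (x (τ c)) c + ham A (x (τ c)) c') * R :=
          Nat.mul_le_mul_right _ h3
      _ = R * ham A (x (τ c)) c + R * ham A (x (τ c)) c' := by ring
      _ ≤ 2 * n := by omega

end Vale.Agent.Lib.P037D
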