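import Mathlib

/-! Step B of the P037 double-exponential blueprint: windows, energy, child choice. -/

namespace Vale.Agent.Lib.P037D

open Finset

/-- The window index of column `c` at level `m`. -/
def win (n m : ℕ) (c : Fin n) : ℕ := c.val * m / n

lemma win_lt {n m : ℕ} (hm : 0 < m) (c : Fin n) : win n m c < m := by
  have hn : 0 < n := lt_of_le_of_lt (Nat.zero_le _) c.2
  unfold win
  rw [Nat.div_lt_iff_lt_mul hn]
  calc c.val * m < n * m := Nat.mul_lt_mul_of_pos_right c.2 hm
    _ = m * n := Nat.mul_comm _ _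

lemma win_mono {n m : ℕ} : Monotone (win n m) := by
  intro c c' h
  exact Nat.div_le_div_right (Nat.mul_le_mul_right _ h)

lemma win_div {n m b : ℕ} (hb : 0 < b) (c : Fin n) : win n (m * b) c / b = win n m c := by
  have hn : 0 < n := lt_of_le_of_lt (Nat.zero_le _) c.2
  unfold win
  rw [Nat.div_div_eq_div_mul, Nat.mul_comm n b, ← Nat.mul_assoc, Nat.mul_comm b n,
    Nat.mul_div_mul_right _ _ hb]

/-- The column set of window `a` at level `m`. -/
def winSet (n m a : ℕ) : Finset (Fin n) := univ.filter (fun c => win n m c = a)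

lemma mem_winSet {n m a : ℕ} {c : Fin n} : c ∈ winSet n m a ↔ win n m c = a := by
  simp [winSet]

/-- The size of a window. -/
def winSize (n m a : ℕ) : ℕ := (winSet n m a).card

/-- Characterisation of the window by inequalities. -/
lemma win_eq_iff {n m a : ℕ} (c : Fin n) :
    win n m c = a ↔ a * n ≤ c.val * m ∧ c.val * m < (a + 1) * n := by
  have hn : 0 < n := lt_of_le_of_lt (Nat.zero_le _) c.2
  unfold win
  constructor
  · rintro rfl
    constructor
    · exact Nat.div_mul_le_self _ _
    · have h := Nat.div_add_mod (c.val * m) n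
      have h2 := Nat.mod_lt (c.val * m) hn
      nlinarith
  · rintro ⟨h1, h2⟩
    apply Nat.eq_of_le_of_lt_succ
    · exact (Nat.div_le_div_right h1 |>.trans' (by rw [Nat.mul_div_cancel _ hn]))
    · exact (Nat.div_lt_iff_lt_mul hn).2 (by simpa using h2)

/-- Ceiling of `a * n / m`. -/
def ceilPt (n m a : ℕ) : ℕ := (a * n + (m - 1)) / m

lemma le_ceilPt_iff {n m a : ℕ} (hm : 0 < m) (c : ℕ) : ceilPt n m a ≤ c ↔ a * n ≤ c * m := by
  unfold ceilPt
  rw [Nat.div_le_iff_le_mul_add_pred hm]
  constructor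
  · intro h
    have : m * c = c * m := Nat.mul_comm _ _
    omega
  · intro h
    have : m * c = c * m := Nat.mul_comm _ _
    omega

lemma ceilPt_bounds {n m : ℕ} (hm : 0 < m) (a : ℕ) :
    a * n ≤ ceilPt n m a * m ∧ ceilPt n m a * m + 1 ≤ a * n + m := by
  constructor
  · exact (le_ceilPt_iff hm _).1 le_rfl
  · unfold ceilPt
    have h := Nat.div_add_mod (a * n + (m - 1)) m
    have h2 := Nat.mod_lt (a * n + (m - 1)) hm
    have : (a * n + (m - 1)) / m * m = m * ((a * n + (m - 1)) / m) := Nat.mul_comm _ _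
    omega

/-- The window as an interval of natural numbers. -/
lemma winSet_map {n m a : ℕ} (hm : 0 < m) (ha : a < m) :
    (winSet n m a).map Fin.valEmbedding = Ico (ceilPt n m a) (ceilPt n m (a + 1)) := by
  ext x
  simp only [mem_map, mem_winSet, Fin.valEmbedding_apply, mem_Ico]
  constructor
  · rintro ⟨c, hc, rfl⟩
    rw [win_eq_iff] at hc
    constructor
    · exact (le_ceilPt_iff hm _).2 hc.1
    · rw [← not_le, le_ceilPt_iff hm]
      omega
  · rintro ⟨h1, h2⟩
    have h1' := (le_ceilPt_iff hm _).1 h1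
    have h2' : x * m < (a + 1) * n := by
      rw [← not_le, ← le_ceilPt_iff hm]
      omega
    have hxn : x < n := by
      have : (a + 1) * n ≤ m * n := Nat.mul_le_mul_right _ ha
      have hmx : x * m < m * n := lt_of_lt_of_le h2' this
      rw [Nat.mul_comm x m] at hmx
      exact Nat.lt_of_mul_lt_mul_left hmx
    refine ⟨⟨x, hxn⟩, ?_, rfl⟩
    rw [win_eq_iff]
    exact ⟨h1', h2'⟩

lemma winSize_eq {n m a : ℕ} (hm : 0 < m) (ha : a < m) :
    winSize n m a = ceilPt n m (a + 1) - ceilPt n m a := by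
  unfold winSize
  rw [← card_map Fin.valEmbedding, winSet_map hm ha, Nat.card_Ico]

/-- Windows have the expected size. -/
lemma winSize_bounds {n m a : ℕ} (hm : 0 < m) (ha : a < m) :
    n ≤ winSize n m a * m + m ∧ winSize n m a * m ≤ n + m := by
  rw [winSize_eq hm ha]
  obtain ⟨h1, h2⟩ := ceilPt_bounds (n := n) hm a
  obtain ⟨h3, h4⟩ := ceilPt_bounds (n := n) hm (a + 1)
  have hle : ceilPt n m a ≤ ceilPt n m (a + 1) := by
    rw [le_ceilPt_iff hm]
    have : a * n ≤ (a + 1) * n := Nat.mul_le_mul_right _ (by omega)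
    omega
  rw [Nat.sub_mul]
  have h5 : (a + 1) * n = a * n + n := by ring
  have h6 : ceilPt n m a * m ≤ ceilPt n m (a + 1) * m := Nat.mul_le_mul_right _ hle
  omega

lemma winSize_pos {n m a : ℕ} (hm : 0 < m) (ha : a < m) (hn : 2 * m ≤ n) : 0 < winSize n m a := by
  obtain ⟨h1, -⟩ := winSize_bounds (n := n) hm ha
  by_contra h
  have h0 : winSize n m a = 0 := by omega
  rw [h0] at h1
  omega

/-! ### The tree of windows -/

/-- The children of window `a` among the windows of level `m * b`. -/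
def kids (m b a : ℕ) : Finset ℕ := (range (m * b)).filter (fun a' => a' / b = a)

lemma mem_kids {m b a a' : ℕ} : a' ∈ kids m b a ↔ a' < m * b ∧ a' / b = a := by
  simp [kids]

lemma kids_nonempty {m b a : ℕ} (hb : 0 < b) (ha : a < m) : (kids m b a).Nonempty := by
  refine ⟨a * b, mem_kids.2 ⟨Nat.mul_lt_mul_of_pos_right ha hb, Nat.mul_div_cancel _ hb⟩⟩

lemma sum_kids {m b : ℕ} (hb : 0 < b) (f : ℕ → ℝ) :
    ∑ a ∈ range m, ∑ a' ∈ kids m b a, f a' = ∑ a' ∈ range (m * b), f a' := by
  refine sum_fiberwise_of_maps_to (g := fun a' => a' / b) (fun a' ha' => ?_) f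
  rw [mem_range] at ha' ⊢
  exact Nat.div_lt_of_lt_mul (by rwa [Nat.mul_comm b m])

variable {Q : Type*} [Fintype Q] [DecidableEq Q]

/-- The number of columns of class `q` in window `a` at level `m`. -/
def cnt {n : ℕ} (cl : Fin n → Q) (m a : ℕ) (q : Q) : ℕ :=
  ((winSet n m a).filter (fun c => cl c = q)).card

lemma cnt_le {n : ℕ} (cl : Fin n → Q) (m a : ℕ) (q : Q) : cnt cl m a q ≤ winSize n m a :=
  card_le_card (filter_subset _ _)

lemma sum_cnt {n : ℕ} (cl : Fin n → Q) (m a : ℕ) : ∑ q, cnt cl m a q = winSize n m a := by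
  unfold cnt winSize
  exact (card_eq_sum_card_fiberwise (fun c _ => mem_coe.2 (mem_univ (cl c)))).symm

lemma sum_winSize {n m : ℕ} (hm : 0 < m) : ∑ a ∈ range m, winSize n m a = n := by
  have := card_eq_sum_card_fiberwise (f := win n m) (s := (univ : Finset (Fin n)))
    (t := range m) (fun c _ => mem_coe.2 (mem_range.2 (win_lt hm c)))
  simpa [winSize, winSet] using this.symm

lemma winSize_split {n m b a : ℕ} (hm : 0 < m) (hb : 0 < b) :
    winSize n m a = ∑ a' ∈ kids m b a, winSize n (m * b) a' := by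
  unfold winSize
  rw [card_eq_sum_card_fiberwise (f := win n (m * b)) (t := kids m b a)]
  · refine sum_congr rfl (fun a' ha' => ?_)
    congr 1
    ext c
    simp only [mem_filter, mem_winSet]
    constructor
    · exact fun h => h.2
    · intro h
      refine ⟨?_, h⟩
      rw [← win_div hb c, h]
      exact (mem_kids.1 ha').2
  · intro c hc
    rw [mem_coe, mem_winSet] at hc
    rw [mem_coe, mem_kids]
    exact ⟨win_lt (Nat.mul_pos hm hb) c, by rw [win_div hb, hc]⟩

lemma cnt_split {n m b a : ℕ} (hm : 0 < m) (hb : 0 < b) (cl : Fin n → Q) (q : Q) :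
    cnt cl m a q = ∑ a' ∈ kids m b a, cnt cl (m * b) a' q := by
  unfold cnt
  rw [card_eq_sum_card_fiberwise (f := win n (m * b)) (t := kids m b a)]
  · refine sum_congr rfl (fun a' ha' => ?_)
    congr 1
    ext c
    simp only [mem_filter, mem_winSet]
    constructor
    · exact fun h => ⟨h.2, h.1.2⟩
    · rintro ⟨h, h'⟩
      refine ⟨⟨?_, h'⟩, h⟩
      rw [← win_div hb c, h]
      exact (mem_kids.1 ha').2
  · intro c hc
    rw [mem_coe, mem_filter, mem_winSet] at hc
    rw [mem_coe, mem_kids]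
    exact ⟨win_lt (Nat.mul_pos hm hb) c, by rw [win_div hb, hc.1]⟩

/-! ### Energy -/

/-- The energy of the class map at level `m`. -/
noncomputable def En {n : ℕ} (cl : Fin n → Q) (m : ℕ) : ℝ :=
  ∑ a ∈ range m, ∑ q, (cnt cl m a q : ℝ) ^ 2 / winSize n m a

lemma En_nonneg {n : ℕ} (cl : Fin n → Q) (m : ℕ) : 0 ≤ En cl m := by
  unfold En
  positivity

lemma En_le {n m : ℕ} (cl : Fin n → Q) (hm : 0 < m) : En cl m ≤ n := by
  unfold En
  have h1 : ∀ a ∈ range m, ∑ q, (cnt cl m a q : ℝ) ^ 2 / winSize n m a ≤ (winSize n m a : ℝ) := by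
    intro a _
    have h2 : ∀ q, (cnt cl m a q : ℝ) ^ 2 / winSize n m a ≤ cnt cl m a q := by
      intro q
      have hle : (cnt cl m a q : ℝ) ≤ winSize n m a := by exact_mod_cast cnt_le cl m a q
      rcases eq_or_lt_of_le (Nat.zero_le (winSize n m a)) with h0 | hpos
      · rw [← h0]
        simp
      · have hpos' : (0 : ℝ) < winSize n m a := by exact_mod_cast hpos
        rw [div_le_iff₀ hpos', sq]
        exact mul_le_mul_of_nonneg_left hle (by positivity)
    calc _ ≤ ∑ q, (cnt cl m a q : ℝ) := sum_le_sum (fun q _ => h2 q)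
      _ = _ := by exact_mod_cast sum_cnt cl m a
  calc _ ≤ ∑ a ∈ range m, (winSize n m a : ℝ) := sum_le_sum h1
    _ = n := by exact_mod_cast sum_winSize hm

/-- The variance of class `q` among the children of window `a`. -/
noncomputable def Var {n : ℕ} (cl : Fin n → Q) (m b a : ℕ) (q : Q) : ℝ :=
  ∑ a' ∈ kids m b a, (winSize n (m * b) a' : ℝ) *
    ((cnt cl (m * b) a' q : ℝ) / winSize n (m * b) a' - (cnt cl m a q : ℝ) / winSize n m a) ^ 2

lemma Var_nonneg {n : ℕ} (cl : Fin n → Q) (m b a : ℕ) (q : Q) : 0 ≤ Var cl m b a q := by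
  unfold Var
  positivity

/-- Abstract variance identity. -/
lemma variance_identity {ι : Type*} (K : Finset ι) (s x : ι → ℝ) (hs : ∀ i ∈ K, 0 < s i)
    (S X : ℝ) (hS : S = ∑ i ∈ K, s i) (hX : X = ∑ i ∈ K, x i) (hSpos : 0 < S) :
    ∑ i ∈ K, s i * (x i / s i - X / S) ^ 2 = ∑ i ∈ K, x i ^ 2 / s i - X ^ 2 / S := by
  have h : ∀ i ∈ K, s i * (x i / s i - X / S) ^ 2 =
      x i ^ 2 / s i - 2 * (X / S) * x i + (X / S) ^ 2 * s i := by
    intro i hi
    have := (hs i hi).ne'
    field_simp
    ring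
  rw [sum_congr rfl h, sum_add_distrib, sum_sub_distrib, ← mul_sum, ← mul_sum, ← hX, ← hS]
  field_simp
  ring

/-- The energy increment is the total variance. -/
lemma energy_increment {n m b : ℕ} (cl : Fin n → Q) (hm : 0 < m) (hb : 0 < b)
    (hn : 2 * (m * b) ≤ n) :
    En cl (m * b) - En cl m = ∑ a ∈ range m, ∑ q, Var cl m b a q := by
  have hmb : 0 < m * b := Nat.mul_pos hm hb
  have hn' : 2 * m ≤ n := by
    have : m ≤ m * b := Nat.le_mul_of_pos_right _ hb
    omega
  have h1 : En cl (m * b) = ∑ a ∈ range m, ∑ a' ∈ kids m b a,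
      ∑ q, (cnt cl (m * b) a' q : ℝ) ^ 2 / winSize n (m * b) a' := by
    unfold En
    exact (sum_kids hb _).symm
  rw [h1]
  unfold En
  rw [← sum_sub_distrib]
  refine sum_congr rfl (fun a ha => ?_)
  have ha' := mem_range.1 ha
  rw [sum_comm, ← sum_sub_distrib]
  refine sum_congr rfl (fun q _ => ?_)
  unfold Var
  have hpos : ∀ a' ∈ kids m b a, (0 : ℝ) < winSize n (m * b) a' := by
    intro a' h
    exact_mod_cast winSize_pos hmb (mem_kids.1 h).1 hn
  have hS : (winSize n m a : ℝ) = ∑ a' ∈ kids m b a, (winSize n (m * b) a' : ℝ) := by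
    exact_mod_cast winSize_split (n := n) (a := a) hm hb
  have hX : (cnt cl m a q : ℝ) = ∑ a' ∈ kids m b a, (cnt cl (m * b) a' q : ℝ) := by
    exact_mod_cast cnt_split (a := a) hm hb cl q
  have hSpos : (0 : ℝ) < winSize n m a := by exact_mod_cast winSize_pos hm ha' hn'
  exact (variance_identity (kids m b a) (fun a' => (winSize n (m * b) a' : ℝ))
    (fun a' => (cnt cl (m * b) a' q : ℝ)) hpos _ _ hS hX hSpos).symm

lemma energy_increment_nonneg {n m b : ℕ} (cl : Fin n → Q) (hm : 0 < m) (hb : 0 < b)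
    (hn : 2 * (m * b) ≤ n) : 0 ≤ En cl (m * b) - En cl m := by
  rw [energy_increment cl hm hb hn]
  exact sum_nonneg (fun a _ => sum_nonneg (fun q _ => Var_nonneg cl m b a q))

/-- Pigeonhole over a chain of levels. -/
theorem exists_small_increment {n : ℕ} (cl : Fin n → Q) (J : ℕ) (hJ : 0 < J) (M b : ℕ → ℕ)
    (hM0 : 0 < M 0) (hM : ∀ j, M (j + 1) = M j * b j) (hbpos : ∀ j, 0 < b j)
    (hn : ∀ j, j < J → 2 * (M (j + 1)) ≤ n) :
    ∃ j, j < J ∧ En cl (M (j + 1)) - En cl (M j) ≤ (n : ℝ) / J := by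
  by_contra hno
  push Not at hno
  have hMpos : ∀ j, 0 < M j := by
    intro j
    induction j with
    | zero => exact hM0
    | succ j ih => rw [hM]; exact Nat.mul_pos ih (hbpos j)
  have hsum : ∑ j ∈ range J, (En cl (M (j + 1)) - En cl (M j)) = En cl (M J) - En cl (M 0) :=
    sum_range_sub (fun j => En cl (M j)) J
  have hJ' : (0 : ℝ) < J := by exact_mod_cast hJ
  have h1 : ∑ j ∈ range J, ((n : ℝ) / J) < ∑ j ∈ range J, (En cl (M (j + 1)) - En cl (M j)) := by
    refine sum_lt_sum_of_nonempty ⟨0, mem_range.2 hJ⟩ (fun j hj => hno j (mem_range.1 hj))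
  rw [sum_const, card_range, nsmul_eq_mul, hsum] at h1
  have h2 : (J : ℝ) * ((n : ℝ) / J) = n := by field_simp
  rw [h2] at h1
  have h3 := En_le cl (hMpos J)
  have h4 := En_nonneg cl (M 0)
  linarith

/-! ### Cost of a child and the choice of children -/

/-- Class `q` is absent from the child window `a'` (level `m'`) at threshold `θ`. -/
def Absent {n : ℕ} (cl : Fin n → Q) (θ : ℝ) (m' a' : ℕ) (q : Q) : Prop :=
  (cnt cl m' a' q : ℝ) < θ * winSize n m' a'

open scoped Classical in
/-- The cost of choosing child `a'` for window `a`: columns of window `a` whose class is absent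
from the child. -/
noncomputable def cost {n : ℕ} (cl : Fin n → Q) (θ : ℝ) (m b a a' : ℕ) : ℝ :=
  ∑ q, if Absent cl θ (m * b) a' q then (cnt cl m a q : ℝ) else 0

/-- The per-class estimate of the blueprint (abstract form). -/
lemma bad_child_estimate {ι : Type*} (K : Finset ι) (s x : ι → ℝ) (hs : ∀ i ∈ K, 0 < s i)
    (S X θ : ℝ) (hS : S = ∑ i ∈ K, s i) (hSpos : 0 < S) (hX0 : 0 ≤ X) (hθ : 0 < θ)
    (B : Finset ι) (hB : B ⊆ K) (hbad : ∀ i ∈ B, x i < θ * s i) :
    ∑ i ∈ B, s i * X ≤ S * (2 * θ * S + (2 / θ) * ∑ i ∈ K, s i * (x i / s i - X / S) ^ 2) := by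
  have hVnn : 0 ≤ ∑ i ∈ K, s i * (x i / s i - X / S) ^ 2 := by
    refine sum_nonneg (fun i hi => mul_nonneg (hs i hi).le (sq_nonneg _))
  have hB1 : ∑ i ∈ B, s i ≤ S := by
    rw [hS]
    exact sum_le_sum_of_subset_of_nonneg hB (fun i hi _ => (hs i hi).le)
  have hB0 : 0 ≤ ∑ i ∈ B, s i := sum_nonneg (fun i hi => (hs i (hB hi)).le)
  rw [← sum_mul]
  by_cases hsmall : X < 2 * θ * S
  · have h1 : (∑ i ∈ B, s i) * X ≤ S * (2 * θ * S) :=
      mul_le_mul hB1 hsmall.le hX0 hSpos.le
    have h2 : 0 ≤ S * ((2 / θ) * ∑ i ∈ K, s i * (x i / s i - X / S) ^ 2) := by positivity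
    nlinarith
  · push Not at hsmall
    set π := X / S with hπ
    have hπθ : 2 * θ ≤ π := by
      rw [hπ, le_div_iff₀ hSpos]
      exact hsmall
    have hπpos : 0 < π := by linarith
    have hXπ : X = π * S := by
      rw [hπ]
      field_simp
    -- bad children have large deviation
    have h1 : (π ^ 2 / 4) * ∑ i ∈ B, s i ≤ ∑ i ∈ K, s i * (x i / s i - π) ^ 2 := by
      calc (π ^ 2 / 4) * ∑ i ∈ B, s i = ∑ i ∈ B, s i * (π ^ 2 / 4) := by
            rw [mul_sum]
            exact sum_congr rfl (fun i _ => by ring)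
        _ ≤ ∑ i ∈ B, s i * (x i / s i - π) ^ 2 := by
            refine sum_le_sum (fun i hi => ?_)
            have hsi := hs i (hB hi)
            refine mul_le_mul_of_nonneg_left ?_ hsi.le
            have hlt : x i / s i < θ := by
              rw [div_lt_iff₀ hsi]
              exact hbad i hi
            have hge : π / 2 ≤ π - x i / s i := by linarith
            have : (π / 2) ^ 2 ≤ (π - x i / s i) ^ 2 :=
              pow_le_pow_left₀ (by positivity) hge 2
            nlinarith
        _ ≤ _ := by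
            refine sum_le_sum_of_subset_of_nonneg hB (fun i hi _ =>
              mul_nonneg (hs i hi).le (sq_nonneg _))
    set W := ∑ i ∈ K, s i * (x i / s i - π) ^ 2 with hW
    set W0 := ∑ i ∈ B, s i with hW0
    have h2 : W0 * X ≤ S * (2 / θ * W) := by
      rw [hXπ]
      have h3 : W0 * π ≤ (4 / π) * W := by
        have : π * (W0 * π) ≤ π * ((4 / π) * W) := by
          have e : π * ((4 / π) * W) = 4 * W := by field_simp
          rw [e]
          nlinarith
        exact le_of_mul_le_mul_left this hπpos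
      have h4 : (4 / π) * W ≤ (2 / θ) * W := by
        refine mul_le_mul_of_nonneg_right ?_ hVnn
        rw [div_le_div_iff₀ hπpos hθ]
        linarith
      calc W0 * (π * S) = S * (W0 * π) := by ring
        _ ≤ S * (2 / θ * W) := mul_le_mul_of_nonneg_left (h3.trans h4) hSpos.le
    have h5 : 0 ≤ S * (2 * θ * S) := by positivity
    nlinarith

/-- The average cost over children, summed over windows. -/
theorem average_cost {n m b : ℕ} (cl : Fin n → Q) (θ : ℝ) (hθ : 0 < θ) (hm : 0 < m) (hb : 0 < b)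
    (hn : 2 * (m * b) ≤ n) :
    ∑ a ∈ range m, ∑ a' ∈ kids m b a,
        ((winSize n (m * b) a' : ℝ) / winSize n m a) * cost cl θ m b a a'
      ≤ 2 * θ * Fintype.card Q * n + (2 / θ) * (En cl (m * b) - En cl m) := by
  classical
  have hmb : 0 < m * b := Nat.mul_pos hm hb
  have hn' : 2 * m ≤ n := by
    have : m ≤ m * b := Nat.le_mul_of_pos_right _ hb
    omega
  have hlocal : ∀ a ∈ range m, ∑ a' ∈ kids m b a,
        ((winSize n (m * b) a' : ℝ) / winSize n m a) * cost cl θ m b a a'
      ≤ 2 * θ * Fintype.card Q * winSize n m a + (2 / θ) * ∑ q, Var cl m b a q := by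
    intro a ha
    have ha' := mem_range.1 ha
    have hSpos : (0 : ℝ) < winSize n m a := by exact_mod_cast winSize_pos hm ha' hn'
    have hpos : ∀ a' ∈ kids m b a, (0 : ℝ) < winSize n (m * b) a' := by
      intro a' h
      exact_mod_cast winSize_pos hmb (mem_kids.1 h).1 hn
    have hS : (winSize n m a : ℝ) = ∑ a' ∈ kids m b a, (winSize n (m * b) a' : ℝ) := by
      exact_mod_cast winSize_split (n := n) (a := a) hm hb
    -- per class
    have hq : ∀ q, ∑ a' ∈ kids m b a, (winSize n (m * b) a' : ℝ) *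
          (if Absent cl θ (m * b) a' q then (cnt cl m a q : ℝ) else 0)
        ≤ (winSize n m a : ℝ) * (2 * θ * winSize n m a + (2 / θ) * Var cl m b a q) := by
      intro q
      have h0 : ∑ a' ∈ kids m b a, (winSize n (m * b) a' : ℝ) *
          (if Absent cl θ (m * b) a' q then (cnt cl m a q : ℝ) else 0)
          = ∑ a' ∈ (kids m b a).filter (fun a' => Absent cl θ (m * b) a' q),
              (winSize n (m * b) a' : ℝ) * (cnt cl m a q : ℝ) := by
        rw [sum_filter]
        refine sum_congr rfl (fun a' _ => ?_)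
        split_ifs <;> simp
      rw [h0]
      exact bad_child_estimate (kids m b a) (fun a' => (winSize n (m * b) a' : ℝ))
        (fun a' => (cnt cl (m * b) a' q : ℝ)) hpos _ _ θ hS hSpos (by positivity) hθ _
        (filter_subset _ _) (fun a' h => (mem_filter.1 h).2)
    have hsum : ∑ a' ∈ kids m b a, (winSize n (m * b) a' : ℝ) * cost cl θ m b a a'
        ≤ (winSize n m a : ℝ) * (2 * θ * Fintype.card Q * winSize n m a
            + (2 / θ) * ∑ q, Var cl m b a q) := by
      unfold cost
      have e1 : ∑ a' ∈ kids m b a, (winSize n (m * b) a' : ℝ) *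
            ∑ q, (if Absent cl θ (m * b) a' q then (cnt cl m a q : ℝ) else 0)
          = ∑ q, ∑ a' ∈ kids m b a, (winSize n (m * b) a' : ℝ) *
            (if Absent cl θ (m * b) a' q then (cnt cl m a q : ℝ) else 0) := by
        simp_rw [mul_sum]
        exact sum_comm
      rw [e1]
      calc _ ≤ ∑ q, (winSize n m a : ℝ) * (2 * θ * winSize n m a + (2 / θ) * Var cl m b a q) :=
            sum_le_sum (fun q _ => hq q)
        _ = _ := by
            rw [← mul_sum, sum_add_distrib, ← mul_sum univ (fun q => Var cl m b a q) (2 / θ),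
              sum_const, card_univ, nsmul_eq_mul]
            ring
    have e2 : ∑ a' ∈ kids m b a,
        ((winSize n (m * b) a' : ℝ) / winSize n m a) * cost cl θ m b a a'
        = (∑ a' ∈ kids m b a, (winSize n (m * b) a' : ℝ) * cost cl θ m b a a') / winSize n m a := by
      rw [sum_div]
      exact sum_congr rfl (fun a' _ => by ring)
    rw [e2, div_le_iff₀ hSpos]
    calc _ ≤ _ := hsum
      _ = _ := by ring
  calc _ ≤ ∑ a ∈ range m, (2 * θ * Fintype.card Q * winSize n m a
        + (2 / θ) * ∑ q, Var cl m b a q) := sum_le_sum hlocal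
    _ = _ := by
      rw [sum_add_distrib, ← mul_sum, ← mul_sum, energy_increment cl hm hb hn]
      have : ∑ a ∈ range m, (winSize n m a : ℝ) = n := by exact_mod_cast sum_winSize hm
      rw [this]

/-- Size comparison of child and parent. -/
lemma child_parent_ratio {n m b a a' : ℕ} (hm : 0 < m) (hb : 0 < b) (hn : 2 * (m * b) ≤ n)
    (ha : a < m) (ha' : a' < m * b) :
    (winSize n (m * b) a' : ℝ) / winSize n m a ≤ 4 / b := by
  have hmb : 0 < m * b := Nat.mul_pos hm hb
  have hn' : 2 * m ≤ n := by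
    have : m ≤ m * b := Nat.le_mul_of_pos_right _ hb
    omega
  obtain ⟨h1, -⟩ := winSize_bounds (n := n) hm ha
  obtain ⟨-, h2⟩ := winSize_bounds (n := n) hmb ha'
  have hSpos : (0 : ℝ) < winSize n m a := by exact_mod_cast winSize_pos hm ha hn'
  have hbpos : (0 : ℝ) < b := by exact_mod_cast hb
  rw [div_le_div_iff₀ hSpos hbpos]
  have hmpos : (0 : ℝ) < m := by exact_mod_cast hm
  have h1' : (n : ℝ) ≤ winSize n m a * m + m := by exact_mod_cast h1
  have h2' : (winSize n (m * b) a' : ℝ) * (m * b) ≤ n + m * b := by exact_mod_cast h2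
  have hn1 : (2 : ℝ) * (m * b) ≤ n := by exact_mod_cast hn
  have hn2 : (2 : ℝ) * m ≤ n := by exact_mod_cast hn'
  refine le_of_mul_le_mul_right ?_ hmpos
  nlinarith

/-- Child choice: simultaneous control of cost and of a further weight on children. -/
theorem energy_choice {n m b : ℕ} (cl : Fin n → Q) (θ : ℝ) (hθ : 0 < θ) (hm : 0 < m) (hb : 0 < b)
    (hn : 2 * (m * b) ≤ n) (thr : ℕ → ℝ) (hthr : ∀ a', 0 ≤ thr a') (K T : ℝ) (hK : 0 < K)
    (hT : 0 < T)
    (hcost : 2 * θ * Fintype.card Q * n + (2 / θ) * (En cl (m * b) - En cl m) ≤ K)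
    (hthrT : (4 / (b : ℝ)) * ∑ a' ∈ range (m * b), thr a' ≤ T) :
    ∃ ch : ℕ → ℕ, (∀ a, a < m → ch a < m * b ∧ ch a / b = a) ∧
      ∑ a ∈ range m, cost cl θ m b a (ch a) ≤ 2 * K ∧
      ∑ a ∈ range m, thr (ch a) ≤ 2 * T := by
  classical
  have hmb : 0 < m * b := Nat.mul_pos hm hb
  have hn' : 2 * m ≤ n := by
    have : m ≤ m * b := Nat.le_mul_of_pos_right _ hb
    omega
  -- the combined objective
  let f : ℕ → ℕ → ℝ := fun a a' => cost cl θ m b a a' / K + thr a' / T
  have hcost0 : ∀ a a', 0 ≤ cost cl θ m b a a' := by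
    intro a a'
    unfold cost
    refine sum_nonneg (fun q _ => ?_)
    split_ifs <;> positivity
  -- best child
  have hbest : ∀ a, a < m → ∃ a' ∈ kids m b a, f a a' ≤ ∑ a'' ∈ kids m b a,
      ((winSize n (m * b) a'' : ℝ) / winSize n m a) * f a a'' := by
    intro a ha
    have hSpos : (0 : ℝ) < winSize n m a := by exact_mod_cast winSize_pos hm ha hn'
    have hS : (winSize n m a : ℝ) = ∑ a' ∈ kids m b a, (winSize n (m * b) a' : ℝ) := by
      exact_mod_cast winSize_split (n := n) (a := a) hm hb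
    have hpos : ∀ a' ∈ kids m b a, (0 : ℝ) < winSize n (m * b) a' := by
      intro a' h
      exact_mod_cast winSize_pos hmb (mem_kids.1 h).1 hn
    by_contra hno
    push Not at hno
    have hlt : ∑ a'' ∈ kids m b a, ((winSize n (m * b) a'' : ℝ) / winSize n m a) *
          (∑ a''' ∈ kids m b a, ((winSize n (m * b) a''' : ℝ) / winSize n m a) * f a a''')
        < ∑ a'' ∈ kids m b a, ((winSize n (m * b) a'' : ℝ) / winSize n m a) * f a a'' := by
      refine sum_lt_sum_of_nonempty (kids_nonempty hb ha) (fun a' h => ?_)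
      exact mul_lt_mul_of_pos_left (hno a' h) (div_pos (hpos a' h) hSpos)
    rw [← sum_mul, ← sum_div, ← hS, div_self hSpos.ne', one_mul] at hlt
    exact lt_irrefl _ hlt
  choose! ch hch hchf using hbest
  refine ⟨ch, fun a ha => mem_kids.1 (hch a ha), ?_⟩
  -- total objective
  have hratio : ∀ a, a ∈ range m → ∀ a' ∈ kids m b a,
      ((winSize n (m * b) a' : ℝ) / winSize n m a) ≤ 4 / b := by
    intro a ha a' h
    exact child_parent_ratio hm hb hn (mem_range.1 ha) (mem_kids.1 h).1
  have hthrsum : ∑ a ∈ range m, ∑ a' ∈ kids m b a,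
      ((winSize n (m * b) a' : ℝ) / winSize n m a) * thr a'
      ≤ (4 / (b : ℝ)) * ∑ a' ∈ range (m * b), thr a' := by
    rw [← sum_kids hb thr, mul_sum]
    refine sum_le_sum (fun a ha => ?_)
    rw [mul_sum]
    refine sum_le_sum (fun a' h => ?_)
    exact mul_le_mul_of_nonneg_right (hratio a ha a' h) (hthr a')
  have htotal : ∑ a ∈ range m, f a (ch a) ≤ 2 := by
    calc ∑ a ∈ range m, f a (ch a)
        ≤ ∑ a ∈ range m, ∑ a'' ∈ kids m b a,
            ((winSize n (m * b) a'' : ℝ) / winSize n m a) * f a a'' :=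
          sum_le_sum (fun a ha => hchf a (mem_range.1 ha))
      _ = (∑ a ∈ range m, ∑ a' ∈ kids m b a,
            ((winSize n (m * b) a' : ℝ) / winSize n m a) * cost cl θ m b a a') / K
          + (∑ a ∈ range m, ∑ a' ∈ kids m b a,
            ((winSize n (m * b) a' : ℝ) / winSize n m a) * thr a') / T := by
          rw [sum_div, sum_div, ← sum_add_distrib]
          refine sum_congr rfl (fun a _ => ?_)
          rw [sum_div, sum_div, ← sum_add_distrib]
          refine sum_congr rfl (fun a' _ => ?_)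
          simp only [f]
          ring
      _ ≤ 1 + 1 := by
          refine add_le_add ?_ ?_
          · rw [div_le_one hK]
            exact (average_cost cl θ hθ hm hb hn).trans hcost
          · rw [div_le_one hT]
            exact hthrsum.trans hthrT
      _ = 2 := by norm_num
  have hs1 : ∑ a ∈ range m, f a (ch a)
      = (∑ a ∈ range m, cost cl θ m b a (ch a)) / K + (∑ a ∈ range m, thr (ch a)) / T := by
    rw [sum_div, sum_div, ← sum_add_distrib]
  rw [hs1] at htotal
  have h1 : 0 ≤ (∑ a ∈ range m, cost cl θ m b a (ch a)) / K :=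
    div_nonneg (sum_nonneg (fun a _ => hcost0 _ _)) hK.le
  have h2 : 0 ≤ (∑ a ∈ range m, thr (ch a)) / T :=
    div_nonneg (sum_nonneg (fun a _ => hthr _)) hT.le
  constructor
  · have : (∑ a ∈ range m, cost cl θ m b a (ch a)) / K ≤ 2 := by linarith
    rw [div_le_iff₀ hK] at this
    exact this
  · have : (∑ a ∈ range m, thr (ch a)) / T ≤ 2 := by linarith
    rw [div_le_iff₀ hT] at this
    exact this

end Vale.Agent.Lib.P037D
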