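import Vale.Agent.Lib.P037D.StepD
import Vale.Agent.Lib.P037D.Shatter

/-! Steps E and F of the P037 double-exponential blueprint: cleaning up the rows. -/

namespace Vale.Agent.Lib.P037D

open Finset

variable {n k : ℕ}

/-- Light rows are few. -/
lemma light_rows_few {D z2 b E : ℕ} (hk : 0 < k)
    (hD : (2 * k) ^ k * ∑ j ∈ range k, D.choose j < 2 ^ D) (A : Fin n → Fin n → Bool)
    (H : Fin k → Fin k → Bool) (T : Finset (Fin n)) (Bad : Finset (Fin k → Fin n))
    (hn0 : 0 < n)
    (hBad : Bad.card * b ≤ (1 + 9 * k) * n ^ k)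
    (hD2 : ∀ ρ p, StrictMono ρ → StrictMono p → (∀ j, p j ∈ T) →
      (∀ i j, A (ρ i) (p j) = H i j) → ρ ∈ Bad)
    (hz : sauer D T.card < z2) (hb1 : 2 * (E * z2) ^ k * (1 + 9 * k) < b) :
    ((univ : Finset (Fin n)).filter (fun r => 2 * z2 ^ 2 * E *
      (univ.filter (fun r' => traceOn A T r' = traceOn A T r)).card < n)).card * E < n := by
  classical
  set Y := (univ : Finset (Fin n)).filter (fun r => 2 * z2 ^ 2 * E *
      (univ.filter (fun r' => traceOn A T r' = traceOn A T r)).card < n) with hY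
  by_contra hcon
  push Not at hcon
  have hcl : ∀ r ∈ Y, 2 * z2 ^ 2 * (Y.filter (fun r' => traceOn A T r' = traceOn A T r)).card
      ≤ Y.card := by
    intro r hr
    have h1 := (mem_filter.1 hr).2
    have h2 : (Y.filter (fun r' => traceOn A T r' = traceOn A T r)).card ≤
        (univ.filter (fun r' => traceOn A T r' = traceOn A T r)).card :=
      card_le_card (filter_subset_filter _ (subset_univ _))
    have h3 : (2 * z2 ^ 2 * (Y.filter (fun r' => traceOn A T r' = traceOn A T r)).card) * E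
        < Y.card * E := by
      calc (2 * z2 ^ 2 * (Y.filter (fun r' => traceOn A T r' = traceOn A T r)).card) * E
          = 2 * z2 ^ 2 * E * (Y.filter (fun r' => traceOn A T r' = traceOn A T r)).card := by ring
        _ ≤ 2 * z2 ^ 2 * E * (univ.filter (fun r' => traceOn A T r' = traceOn A T r)).card :=
            Nat.mul_le_mul_left _ h2
        _ < n := h1
        _ ≤ _ := hcon
    exact (Nat.lt_of_mul_lt_mul_right h3).le
  have hs := sampling A H hk hD Y T hz hcl
  have hsub : goodTuples A H Y T ⊆ Bad := by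
    intro ρ hρ
    simp only [goodTuples, mem_filter, Fintype.mem_piFinset] at hρ
    obtain ⟨-, hρ1, c, hc1, hc2, hc3⟩ := hρ
    exact hD2 ρ c hρ1 hc1 hc2 hc3
  have hcard := card_le_card hsub
  have hnk : 0 < n ^ k := by positivity
  have h1 : n ^ k ≤ (Y.card * E) ^ k := Nat.pow_le_pow_left hcon k
  have h2 : (n ^ k) * b ≤ (2 * (E * z2) ^ k * (1 + 9 * k)) * n ^ k := by
    calc (n ^ k) * b ≤ (Y.card * E) ^ k * b := Nat.mul_le_mul_right _ h1
      _ = Y.card ^ k * E ^ k * b := by rw [mul_pow]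
      _ ≤ (2 * z2 ^ k * (goodTuples A H Y T).card) * E ^ k * b :=
          Nat.mul_le_mul_right _ (Nat.mul_le_mul_right _ hs)
      _ ≤ (2 * z2 ^ k * Bad.card) * E ^ k * b :=
          Nat.mul_le_mul_right _ (Nat.mul_le_mul_right _ (Nat.mul_le_mul_left _ hcard))
      _ = 2 * (E * z2) ^ k * (Bad.card * b) := by rw [mul_pow]; ring
      _ ≤ 2 * (E * z2) ^ k * ((1 + 9 * k) * n ^ k) := Nat.mul_le_mul_left _ hBad
      _ = _ := by ring
  have h3 : b ≤ 2 * (E * z2) ^ k * (1 + 9 * k) := by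
    rw [Nat.mul_comm (n ^ k) b] at h2
    exact Nat.le_of_mul_le_mul_right h2 hnk
  omega

/-- Heavy traces are few. -/
lemma heavy_traces_few {β : Type*} [DecidableEq β] (τ : Fin n → β) (V : ℕ) (hn0 : 0 < n) :
    (((univ : Finset (Fin n)).filter (fun r =>
      n ≤ V * (univ.filter (fun r' => τ r' = τ r)).card)).image τ).card ≤ V := by
  classical
  set 𝓗 := ((univ : Finset (Fin n)).filter (fun r =>
      n ≤ V * (univ.filter (fun r' => τ r' = τ r)).card)).image τ with h𝓗
  have h1 : ∀ h ∈ 𝓗, n ≤ V * (univ.filter (fun r' => τ r' = h)).card := by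
    intro h hh
    obtain ⟨r, hr, rfl⟩ := mem_image.1 hh
    exact (mem_filter.1 hr).2
  have h2 : 𝓗.card * n ≤ V * ∑ h ∈ 𝓗, (univ.filter (fun r' => τ r' = h)).card := by
    rw [mul_sum]
    have := card_nsmul_le_sum 𝓗 (fun h => V * (univ.filter (fun r' => τ r' = h)).card) n h1
    simpa using this
  have h3 : ∑ h ∈ 𝓗, (univ.filter (fun r' => τ r' = h)).card ≤ n := by
    have h4 : ∑ h ∈ 𝓗, (univ.filter (fun r' => τ r' = h)).card
        = (𝓗.biUnion (fun h => univ.filter (fun r' => τ r' = h))).card := by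
      rw [card_biUnion]
      intro h _ h' _ hne
      exact disjoint_filter.2 (fun r _ e e' => hne (e.symm.trans e'))
    rw [h4]
    calc _ ≤ (univ : Finset (Fin n)).card := card_le_card (subset_univ _)
      _ = n := by simp
  have h5 : 𝓗.card * n ≤ V * n := h2.trans (Nat.mul_le_mul_left _ h3)
  exact Nat.le_of_mul_le_mul_right h5 hn0

/-- The monotone retraction onto a nonempty set. -/
lemma exists_retraction (Kept : Finset (Fin n)) (hKept : Kept.Nonempty) :
    ∃ μ : Fin n → Fin n, Monotone μ ∧ (∀ r, μ r ∈ Kept) ∧ ∀ r ∈ Kept, μ r = r := by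
  classical
  let μ : Fin n → Fin n := fun r =>
    if h : (Kept.filter (· ≤ r)).Nonempty then (Kept.filter (· ≤ r)).max' h else Kept.min' hKept
  refine ⟨μ, ?_, ?_, ?_⟩
  · intro r r' hrr'
    simp only [μ]
    by_cases h : (Kept.filter (· ≤ r)).Nonempty
    · have h' : (Kept.filter (· ≤ r')).Nonempty := by
        obtain ⟨x, hx⟩ := h
        exact ⟨x, mem_filter.2 ⟨(mem_filter.1 hx).1, (mem_filter.1 hx).2.trans hrr'⟩⟩
      rw [dif_pos h, dif_pos h']
      apply max'_le
      intro y hy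
      exact le_max' (Kept.filter (· ≤ r')) y
        (mem_filter.2 ⟨(mem_filter.1 hy).1, (mem_filter.1 hy).2.trans hrr'⟩)
    · rw [dif_neg h]
      by_cases h' : (Kept.filter (· ≤ r')).Nonempty
      · rw [dif_pos h']
        exact min'_le _ _ (mem_filter.1 (max'_mem _ h')).1
      · rw [dif_neg h']
  · intro r
    simp only [μ]
    by_cases h : (Kept.filter (· ≤ r)).Nonempty
    · rw [dif_pos h]
      exact (mem_filter.1 (max'_mem _ h)).1
    · rw [dif_neg h]
      exact min'_mem _ _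
  · intro r hr
    simp only [μ]
    have h : (Kept.filter (· ≤ r)).Nonempty := ⟨r, mem_filter.2 ⟨hr, le_rfl⟩⟩
    rw [dif_pos h]
    refine le_antisymm (mem_filter.1 (max'_mem _ h)).2 ?_
    exact le_max' (Kept.filter (· ≤ r)) r (mem_filter.2 ⟨hr, le_rfl⟩)

/-- Steps E and F: deleting few rows makes the retracted matrix free of `H`. -/
theorem rows_step {D z2 b E g2 : ℕ} (hk : 0 < k)
    (hD : (2 * k) ^ k * ∑ j ∈ range k, D.choose j < 2 ^ D) (A : Fin n → Fin n → Bool)
    (H : Fin k → Fin k → Bool) (κ : Fin n → Fin n) (Bad : Finset (Fin k → Fin n))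
    (hn0 : 0 < n) (hE : 3 ≤ E)
    (hBad : Bad.card * b ≤ (1 + 9 * k) * n ^ k)
    (hD1 : ∀ ρ c, StrictMono ρ → StrictMono c → (∀ i j, A (ρ i) (κ (c j)) = H i j) → ρ ∈ Bad)
    (hD2 : ∀ ρ p, StrictMono ρ → StrictMono p → (∀ j, p j ∈ univ.image κ) →
      (∀ i j, A (ρ i) (p j) = H i j) → ρ ∈ Bad)
    (hz : sauer D (univ.image κ).card < z2) (hb1 : 2 * (E * z2) ^ k * (1 + 9 * k) < b)
    (hg2 : 0 < g2) (hBadg : Bad.card < g2 ^ k)
    (hg2n : (2 * z2 ^ 2 * E) ^ k * (k * g2) * E ≤ n) :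
    ∃ (μ : Fin n → Fin n) (Dl : Finset (Fin n)), Dl.card * E ≤ 2 * n ∧ (∀ r, r ∉ Dl → μ r = r) ∧
      ∀ r c : Fin k → Fin n, StrictMono r → StrictMono c →
        ¬ ∀ i j, A (μ (r i)) (κ (c j)) = H i j := by
  classical
  set T := (univ : Finset (Fin n)).image κ with hT
  set τ := traceOn A T with hτ
  set V2 := 2 * z2 ^ 2 * E with hV2
  have hE0 : 0 < E := by omega
  -- light rows
  let Y := (univ : Finset (Fin n)).filter (fun r => V2 *
      (univ.filter (fun r' => τ r' = τ r)).card < n)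
  have hY : Y.card * E < n := light_rows_few hk hD A H T Bad hn0 hBad hD2 hz hb1
  -- heavy traces
  let 𝓗 := ((univ : Finset (Fin n)).filter (fun r =>
      n ≤ V2 * (univ.filter (fun r' => τ r' = τ r)).card)).image τ
  have h𝓗 : 𝓗.card ≤ V2 := heavy_traces_few τ V2 hn0
  -- bad tuples of traces
  let Us : Finset (Fin k → Finset (Fin n)) := Fintype.piFinset (fun _ => 𝓗)
  have hUs : Us.card ≤ V2 ^ k := by
    have : Us.card = 𝓗.card ^ k := by simp [Us, Fintype.card_piFinset]
    rw [this]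
    exact Nat.pow_le_pow_left h𝓗 k
  let BadU : Finset (Fin k → Finset (Fin n)) := Us.filter (fun u => ∃ c : Fin k → Fin n,
    StrictMono c ∧ ∀ i j, κ (c j) ∈ u i ↔ H i j = true)
  -- membership in the trace
  have hmemτ : ∀ r t, t ∈ T → (t ∈ τ r ↔ A r t = true) := by
    intro r t ht
    simp only [hτ, traceOn, mem_filter]
    exact ⟨fun h => h.2, fun h => ⟨ht, h⟩⟩
  have hκT : ∀ c, κ c ∈ T := fun c => mem_image.2 ⟨c, mem_univ _, rfl⟩
  have hchain : ∀ u : Fin k → Finset (Fin n), ∃ X : Finset (Fin n), u ∈ BadU →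
      (X.card ≤ k * g2 ∧ ∀ p : Fin k → Fin n, (∀ j, τ (p j) = u j) → (∀ j, p j ∉ X) → ¬ Monotone p) := by
    intro u
    by_cases hu : u ∈ BadU
    · obtain ⟨-, c, hc1, hc2⟩ := mem_filter.1 hu
      have hocc : (occ τ u univ).card < g2 ^ k := by
        refine lt_of_le_of_lt (card_le_card ?_) hBadg
        intro ρ hρ
        simp only [occ, mem_filter, mem_univ, true_and] at hρ
        refine hD1 ρ c hρ.1 hc1 (fun i j => ?_)
        have h1 := hmemτ (ρ i) (κ (c j)) (hκT _)
        rw [hρ.2.2 i] at h1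
        have h2 := hc2 i j
        cases h3 : A (ρ i) (κ (c j)) <;> cases h4 : H i j <;> simp_all
      obtain ⟨X, Θ, h1, -, h3⟩ := chain_lemma τ hg2 u hocc
      refine ⟨X, fun _ => ⟨h1, fun p hw hX hp => no_monotone_occurrence τ h3 p hp hw hX⟩⟩
    · exact ⟨∅, fun h => absurd h hu⟩
  choose X hX using hchain
  let Dl : Finset (Fin n) := Y ∪ BadU.biUnion X
  have hDl : Dl.card * E ≤ 2 * n := by
    have h1 : (BadU.biUnion X).card ≤ V2 ^ k * (k * g2) := by
      calc _ ≤ ∑ u ∈ BadU, (X u).card := card_biUnion_le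
        _ ≤ ∑ _u ∈ BadU, (k * g2) := sum_le_sum (fun u hu => (hX u hu).1)
        _ = BadU.card * (k * g2) := by simp
        _ ≤ Us.card * (k * g2) := Nat.mul_le_mul_right _ (card_le_card (filter_subset _ _))
        _ ≤ _ := Nat.mul_le_mul_right _ hUs
    have h2 : Dl.card ≤ Y.card + V2 ^ k * (k * g2) := (card_union_le _ _).trans (by omega)
    calc Dl.card * E ≤ (Y.card + V2 ^ k * (k * g2)) * E := Nat.mul_le_mul_right _ h2
      _ = Y.card * E + V2 ^ k * (k * g2) * E := by ring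
      _ ≤ _ := by omega
  have hKept : (Dlᶜ).Nonempty := by
    by_contra hne
    rw [not_nonempty_iff_eq_empty, compl_eq_empty_iff] at hne
    have h1 : Dl.card = n := by rw [hne]; simp
    rw [h1] at hDl
    nlinarith
  obtain ⟨μ, hμ1, hμ2, hμ3⟩ := exists_retraction Dlᶜ hKept
  refine ⟨μ, Dl, hDl, fun r hr => hμ3 r (mem_compl.2 hr), ?_⟩
  intro r c hr hc hcopy
  let p : Fin k → Fin n := fun i => μ (r i)
  have hpm : Monotone p := fun i i' h => hμ1 (hr.monotone h)
  have hpk : ∀ i, p i ∉ Dl := fun i => mem_compl.1 (hμ2 _)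
  let u : Fin k → Finset (Fin n) := fun i => τ (p i)
  have hu : u ∈ BadU := by
    refine mem_filter.2 ⟨Fintype.mem_piFinset.2 (fun i => ?_), c, hc, fun i j => ?_⟩
    · refine mem_image.2 ⟨p i, mem_filter.2 ⟨mem_univ _, ?_⟩, rfl⟩
      by_contra hlight
      exact hpk i (mem_union_left _ (mem_filter.2 ⟨mem_univ _, not_le.1 hlight⟩))
    · have h1 := hmemτ (p i) (κ (c j)) (hκT _)
      simp only [u]
      rw [h1]
      have h2 := hcopy i j
      simp only [p]
      rw [h2]
  exact (hX u hu).2 p (fun j => rfl)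
    (fun j hj => hpk j (mem_union_right _ (mem_biUnion.2 ⟨u, hu, hj⟩))) hpm

end Vale.Agent.Lib.P037D
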