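import Vale.Agent.Lib.P037D.Energy

/-! Step C of the P037 double-exponential blueprint: selecting representatives. -/

namespace Vale.Agent.Lib.P037D

open Finset

variable {Q : Type*} [Fintype Q] [DecidableEq Q]

/-- Step C (selection), abstract form: `X i` are hitting sets and `Θ i` threshold sets. -/
theorem selection {n m b k : ℕ} (cl : Fin n → Q) (θ : ℝ) (hθ : 0 < θ)
    (hθQ : θ * Fintype.card Q < 1) (hm : 0 < m) (hb : 0 < b) (hn : 2 * (m * b) ≤ n)
    (hn0 : 0 < n) (K : ℝ) (hK : 0 < K)
    (hcost : 2 * θ * Fintype.card Q * n + (2 / θ) * (En cl (m * b) - En cl m) ≤ K)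
    {I : Type*} [DecidableEq I] (Is : Finset I) (X Θ : I → Finset (Fin n)) (x : ℕ)
    (hX : ∀ i ∈ Is, (X i).card ≤ x) (hΘ : ∀ i ∈ Is, (Θ i).card ≤ k) (hk : 0 < k) :
    ∃ (κ : Fin n → Fin n) (Z : Finset (Fin n)),
      (∀ c c' t, c ≤ c' → κ c' ≤ t → t < κ c → t ∈ Z) ∧
      (univ.image κ).card ≤ m * Fintype.card Q ∧
      ((univ.filter (fun c => cl (κ c) ≠ cl c)).card : ℝ) ≤ 2 * K ∧
      ((Is.filter (fun i => ∃ c, κ c ∈ X i)).card : ℝ) ≤
        (2 * m * b / (θ * n)) * (Is.card * x) ∧
      ((Is.filter (fun i => ∃ t ∈ Θ i, t ∈ Z)).card : ℝ) ≤ 8 * k * Is.card / b := by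
  classical
  have hmb : 0 < m * b := Nat.mul_pos hm hb
  have hn' : 2 * m ≤ n := by
    have : m ≤ m * b := Nat.le_mul_of_pos_right _ hb
    omega
  have : Nonempty (Fin n) := ⟨⟨0, hn0⟩⟩
  have : Nonempty Q := ⟨cl ⟨0, hn0⟩⟩
  have hbR : (0 : ℝ) < b := by exact_mod_cast hb
  have hnR : (0 : ℝ) < n := by exact_mod_cast hn0
  -- the threshold weights
  let Pairs : Finset (Σ _ : I, Fin n) := Is.sigma Θ
  let thr : ℕ → ℝ := fun a' => ((Pairs.filter (fun p => win n (m * b) p.2 = a')).card : ℝ)
  have hthr : ∀ a', 0 ≤ thr a' := fun a' => by positivity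
  have hPairs : (Pairs.card : ℝ) ≤ k * Is.card := by
    have h1 : Pairs.card = ∑ i ∈ Is, (Θ i).card := card_sigma _ _
    have h2 : ∑ i ∈ Is, (Θ i).card ≤ ∑ _i ∈ Is, k := sum_le_sum hΘ
    rw [sum_const, smul_eq_mul] at h2
    rw [h1]
    have h3 : (∑ i ∈ Is, (Θ i).card : ℕ) ≤ k * Is.card := by
      rw [Nat.mul_comm]
      exact h2
    exact_mod_cast h3
  have hthrsum : ∑ a' ∈ range (m * b), thr a' = Pairs.card := by
    have := card_eq_sum_card_fiberwise (f := fun p : (Σ _ : I, Fin n) => win n (m * b) p.2)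
      (s := Pairs) (t := range (m * b)) (fun p _ => mem_coe.2 (mem_range.2 (win_lt hmb p.2)))
    simp only [thr]
    rw [this]
    push_cast
    rfl
  -- choice of children
  obtain ⟨ch, hch, hchc, hcht⟩ : ∃ ch : ℕ → ℕ, (∀ a, a < m → ch a < m * b ∧ ch a / b = a) ∧
      ∑ a ∈ range m, cost cl θ m b a (ch a) ≤ 2 * K ∧
      (Is.Nonempty → ∑ a ∈ range m, thr (ch a) ≤ 8 * k * Is.card / b) := by
    by_cases hIs : Is.Nonempty
    · have hIspos : (0 : ℝ) < Is.card := by exact_mod_cast card_pos.2 hIs
      have hkR : (0 : ℝ) < k := by exact_mod_cast hk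
      obtain ⟨ch, h1, h2, h3⟩ := energy_choice cl θ hθ hm hb hn thr hthr K
        ((4 / (b : ℝ)) * (k * Is.card)) hK (by positivity) hcost (by
          rw [hthrsum]
          exact mul_le_mul_of_nonneg_left hPairs (by positivity))
      refine ⟨ch, h1, h2, fun _ => h3.trans (le_of_eq ?_)⟩
      field_simp
      ring
    · obtain ⟨ch, h1, h2, -⟩ := energy_choice cl θ hθ hm hb hn thr hthr K 1 hK one_pos hcost (by
        have hIs0 : Is = ∅ := not_nonempty_iff_eq_empty.1 hIs
        have hP : Pairs = ∅ := by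
          simp [Pairs, hIs0]
        rw [hthrsum, hP]
        simp)
      exact ⟨ch, h1, h2, fun h => absurd h hIs⟩
  -- the windows chosen, and the present classes
  let xc : Fin n → ℕ := fun f => (Is.filter (fun i => f ∈ X i)).card
  let P : ℕ → Q → Finset (Fin n) := fun a q => (winSet n (m * b) (ch a)).filter (fun c => cl c = q)
  let Present : ℕ → Q → Prop := fun a q => a < m ∧ ¬ Absent cl θ (m * b) (ch a) q
  have hsizepos : ∀ a, a < m → (0 : ℝ) < winSize n (m * b) (ch a) := by
    intro a ha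
    exact_mod_cast winSize_pos hmb (hch a ha).1 hn
  have hPnon : ∀ a q, Present a q → (P a q).Nonempty := by
    rintro a q ⟨ha, hq⟩
    have h1 : θ * winSize n (m * b) (ch a) ≤ cnt cl (m * b) (ch a) q := not_lt.1 hq
    have h2 : (0 : ℝ) < θ * winSize n (m * b) (ch a) := mul_pos hθ (hsizepos a ha)
    have h3 : (0 : ℝ) < cnt cl (m * b) (ch a) q := lt_of_lt_of_le h2 h1
    have h4 : 0 < cnt cl (m * b) (ch a) q := by exact_mod_cast h3
    exact card_pos.1 h4
  have hfex : ∀ a q, Present a q → ∃ f, f ∈ P a q ∧ ∀ f' ∈ P a q, xc f ≤ xc f' := by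
    intro a q h
    obtain ⟨f, hf, hmin⟩ := exists_min_image (P a q) xc (hPnon a q h)
    exact ⟨f, hf, hmin⟩
  choose! f hfP hfmin using hfex
  have hqex : ∀ a, a < m → ∃ q, Present a q := by
    intro a ha
    by_contra hno
    push Not at hno
    have habs : ∀ q, (cnt cl (m * b) (ch a) q : ℝ) < θ * winSize n (m * b) (ch a) := by
      intro q
      by_contra h
      exact hno q ⟨ha, h⟩
    have h1 : (winSize n (m * b) (ch a) : ℝ) < ∑ _q : Q, θ * winSize n (m * b) (ch a) := by
      have h2 : (winSize n (m * b) (ch a) : ℝ) = ∑ q, (cnt cl (m * b) (ch a) q : ℝ) := by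
        exact_mod_cast (sum_cnt cl (m * b) (ch a)).symm
      calc (winSize n (m * b) (ch a) : ℝ) = _ := h2
        _ < _ := sum_lt_sum_of_nonempty univ_nonempty (fun q _ => habs q)
    rw [sum_const, card_univ, nsmul_eq_mul] at h1
    have h3 := hsizepos a ha
    have h4 : (Fintype.card Q : ℝ) * (θ * winSize n (m * b) (ch a))
        = (θ * Fintype.card Q) * winSize n (m * b) (ch a) := by ring
    rw [h4] at h1
    nlinarith
  choose! qd hqd using hqex
  -- the representative map
  let κ : Fin n → Fin n := fun c =>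
    if Present (win n m c) (cl c) then f (win n m c) (cl c) else f (win n m c) (qd (win n m c))
  have hκq : ∀ c, ∃ q, Present (win n m c) q ∧ κ c = f (win n m c) q ∧
      (Present (win n m c) (cl c) → q = cl c) := by
    intro c
    by_cases h : Present (win n m c) (cl c)
    · exact ⟨cl c, h, by simp [κ, h], fun _ => rfl⟩
    · exact ⟨qd (win n m c), hqd _ (win_lt hm c), by simp [κ, h], fun h' => absurd h' h⟩
  have hκwin : ∀ c, win n (m * b) (κ c) = ch (win n m c) := by
    intro c
    obtain ⟨q, hq, he, -⟩ := hκq c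
    rw [he]
    exact mem_winSet.1 (mem_filter.1 (hfP _ _ hq)).1
  have hκm : ∀ c, win n m (κ c) = win n m c := by
    intro c
    rw [← win_div hb, hκwin]
    exact (hch _ (win_lt hm c)).2
  let Z : Finset (Fin n) := (range m).biUnion (fun a => winSet n (m * b) (ch a))
  refine ⟨κ, Z, ?_, ?_, ?_, ?_, ?_⟩
  · -- (K1)
    intro c c' t hcc' h1 h2
    have hle : win n m c ≤ win n m c' := win_mono hcc'
    have hlt : win n m (κ c') ≤ win n m (κ c) := win_mono (h1.trans h2.le)
    rw [hκm, hκm] at hlt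
    have heq : win n m c = win n m c' := le_antisymm hle hlt
    have h3 : win n (m * b) (κ c') ≤ win n (m * b) t := win_mono h1
    have h4 : win n (m * b) t ≤ win n (m * b) (κ c) := win_mono h2.le
    rw [hκwin] at h3 h4
    rw [← heq] at h3
    have h5 : win n (m * b) t = ch (win n m c) := le_antisymm h4 h3
    exact mem_biUnion.2 ⟨win n m c, mem_range.2 (win_lt hm c), mem_winSet.2 h5⟩
  · -- size of the image
    have hsub : univ.image κ ⊆ ((range m) ×ˢ (univ : Finset Q)).image (fun p => f p.1 p.2) := by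
      intro y hy
      obtain ⟨c, -, rfl⟩ := mem_image.1 hy
      obtain ⟨q, -, he, -⟩ := hκq c
      exact mem_image.2 ⟨(win n m c, q), mem_product.2 ⟨mem_range.2 (win_lt hm c), mem_univ _⟩,
        he.symm⟩
    calc _ ≤ _ := card_le_card hsub
      _ ≤ ((range m) ×ˢ (univ : Finset Q)).card := card_image_le
      _ = _ := by simp
  · -- cost
    have hsub : univ.filter (fun c => cl (κ c) ≠ cl c) ⊆ (range m).biUnion (fun a =>
        (univ.filter (fun q => Absent cl θ (m * b) (ch a) q)).biUnion (fun q =>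
          (winSet n m a).filter (fun c => cl c = q))) := by
      intro c hc
      have hne : cl (κ c) ≠ cl c := (mem_filter.1 hc).2
      refine mem_biUnion.2 ⟨win n m c, mem_range.2 (win_lt hm c), mem_biUnion.2 ⟨cl c, ?_, ?_⟩⟩
      · refine mem_filter.2 ⟨mem_univ _, ?_⟩
        by_contra habs
        have hP : Present (win n m c) (cl c) := ⟨win_lt hm c, habs⟩
        apply hne
        have : κ c = f (win n m c) (cl c) := by simp [κ, hP]
        rw [this]
        exact (mem_filter.1 (hfP _ _ hP)).2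
      · exact mem_filter.2 ⟨mem_winSet.2 rfl, rfl⟩
    have h1 : ((univ.filter (fun c => cl (κ c) ≠ cl c)).card : ℝ) ≤
        ∑ a ∈ range m, cost cl θ m b a (ch a) := by
      have h2 := (card_le_card hsub).trans card_biUnion_le
      have h3 : ((∑ a ∈ range m, ((univ.filter (fun q => Absent cl θ (m * b) (ch a) q)).biUnion
          (fun q => (winSet n m a).filter (fun c => cl c = q))).card : ℕ) : ℝ) ≤
          ∑ a ∈ range m, cost cl θ m b a (ch a) := by
        push_cast
        refine sum_le_sum (fun a _ => ?_)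
        unfold cost
        have h4 : (((univ.filter (fun q => Absent cl θ (m * b) (ch a) q)).biUnion
          (fun q => (winSet n m a).filter (fun c => cl c = q))).card : ℝ) ≤
          ∑ q ∈ univ.filter (fun q => Absent cl θ (m * b) (ch a) q), (cnt cl m a q : ℝ) := by
          exact_mod_cast card_biUnion_le
        refine h4.trans (le_of_eq ?_)
        rw [sum_filter]
      exact le_trans (by exact_mod_cast h2) h3
    exact h1.trans hchc
  · -- the hitting sets
    set R0 : ℝ := 2 * m * b / (θ * n) with hR0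
    have hR0pos : 0 ≤ R0 := by positivity
    let Pr : Finset (ℕ × Q) := ((range m) ×ˢ (univ : Finset Q)).filter (fun p => Present p.1 p.2)
    -- per pair estimate
    have hpair : ∀ p ∈ Pr, (xc (f p.1 p.2) : ℝ) ≤ R0 * ∑ g ∈ P p.1 p.2, (xc g : ℝ) := by
      rintro ⟨a, q⟩ hp
      have hPres : Present a q := (mem_filter.1 hp).2
      have ha : a < m := hPres.1
      simp only
      have h1 : (P a q).card * xc (f a q) ≤ ∑ g ∈ P a q, xc g := by
        have := card_nsmul_le_sum (P a q) xc (xc (f a q)) (fun g hg => hfmin a q hPres g hg)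
        simpa using this
      have h1' : ((P a q).card : ℝ) * xc (f a q) ≤ ∑ g ∈ P a q, (xc g : ℝ) := by
        exact_mod_cast h1
      have h2 : θ * winSize n (m * b) (ch a) ≤ ((P a q).card : ℝ) := not_lt.1 hPres.2
      obtain ⟨h3, -⟩ := winSize_bounds (n := n) hmb (hch a ha).1
      have h3' : (n : ℝ) ≤ winSize n (m * b) (ch a) * (m * b) + m * b := by exact_mod_cast h3
      have hn1 : (2 : ℝ) * (m * b) ≤ n := by exact_mod_cast hn
      have hmbR : (0 : ℝ) < m * b := by exact_mod_cast hmb
      have h4 : (n : ℝ) ≤ 2 * (winSize n (m * b) (ch a) * (m * b)) := by linarith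
      have h5 : θ * n ≤ ((P a q).card : ℝ) * (2 * m * b) := by
        calc θ * n ≤ θ * (2 * (winSize n (m * b) (ch a) * (m * b))) :=
              mul_le_mul_of_nonneg_left h4 hθ.le
          _ = (θ * winSize n (m * b) (ch a)) * (2 * (m * b)) := by ring
          _ ≤ ((P a q).card : ℝ) * (2 * (m * b)) :=
              mul_le_mul_of_nonneg_right h2 (by positivity)
          _ = _ := by ring
      have hθn : 0 < θ * n := by positivity
      rw [hR0, div_mul_eq_mul_div, le_div_iff₀ hθn]
      have hx0 : (0 : ℝ) ≤ xc (f a q) := by positivity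
      calc (xc (f a q) : ℝ) * (θ * n) ≤ xc (f a q) * (((P a q).card : ℝ) * (2 * m * b)) :=
            mul_le_mul_of_nonneg_left h5 hx0
        _ = (((P a q).card : ℝ) * xc (f a q)) * (2 * m * b) := by ring
        _ ≤ (∑ g ∈ P a q, (xc g : ℝ)) * (2 * m * b) :=
            mul_le_mul_of_nonneg_right h1' (by positivity)
        _ = _ := by ring
    -- the pieces are disjoint
    have hdisj : (Pr : Set (ℕ × Q)).PairwiseDisjoint (fun p => P p.1 p.2) := by
      rintro ⟨a, q⟩ hp ⟨a', q'⟩ hp' hne
      refine disjoint_left.2 (fun g hg hg' => hne ?_)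
      have hPa : a < m := (mem_filter.1 (mem_coe.1 hp)).2.1
      have hPa' : a' < m := (mem_filter.1 (mem_coe.1 hp')).2.1
      obtain ⟨h1, h2⟩ := mem_filter.1 hg
      obtain ⟨h3, h4⟩ := mem_filter.1 hg'
      have e1 : win n m g = a := by
        rw [← win_div hb, mem_winSet.1 h1]
        exact (hch a hPa).2
      have e2 : win n m g = a' := by
        rw [← win_div hb, mem_winSet.1 h3]
        exact (hch a' hPa').2
      exact Prod.ext (e1.symm.trans e2) (h2.symm.trans h4)
    have hsumall : ∑ p ∈ Pr, ∑ g ∈ P p.1 p.2, (xc g : ℝ) ≤ ∑ g : Fin n, (xc g : ℝ) := by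
      rw [← sum_biUnion hdisj]
      exact sum_le_sum_of_subset_of_nonneg (subset_univ _) (fun _ _ _ => by positivity)
    have hxtot : ∑ g : Fin n, (xc g : ℝ) ≤ (Is.card : ℝ) * x := by
      have h1 : ∑ g : Fin n, xc g = ∑ i ∈ Is, (X i).card := by
        have := sum_card_bipartiteAbove_eq_sum_card_bipartiteBelow
          (s := (univ : Finset (Fin n))) (t := Is) (fun g i => g ∈ X i)
        simp only [bipartiteAbove, bipartiteBelow] at this
        simp only [xc]
        rw [this]
        refine sum_congr rfl (fun i _ => ?_)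
        congr 1
        ext g
        simp
      have h2 : ∑ i ∈ Is, (X i).card ≤ Is.card * x := by
        have := sum_le_sum hX
        simpa using this
      have h3 : ∑ g : Fin n, xc g ≤ Is.card * x := h1 ▸ h2
      exact_mod_cast h3
    -- union bound
    have hsub : Is.filter (fun i => ∃ c, κ c ∈ X i) ⊆
        Pr.biUnion (fun p => Is.filter (fun i => f p.1 p.2 ∈ X i)) := by
      intro i hi
      obtain ⟨hiIs, c, hc⟩ := mem_filter.1 hi
      obtain ⟨q, hq, he, -⟩ := hκq c
      refine mem_biUnion.2 ⟨(win n m c, q), mem_filter.2 ⟨mem_product.2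
        ⟨mem_range.2 (win_lt hm c), mem_univ _⟩, hq⟩, mem_filter.2 ⟨hiIs, ?_⟩⟩
      simpa [he] using hc
    have hcard : ((Is.filter (fun i => ∃ c, κ c ∈ X i)).card : ℝ) ≤
        ∑ p ∈ Pr, (xc (f p.1 p.2) : ℝ) := by
      have := (card_le_card hsub).trans card_biUnion_le
      exact_mod_cast this
    calc _ ≤ _ := hcard
      _ ≤ ∑ p ∈ Pr, R0 * ∑ g ∈ P p.1 p.2, (xc g : ℝ) := sum_le_sum hpair
      _ = R0 * ∑ p ∈ Pr, ∑ g ∈ P p.1 p.2, (xc g : ℝ) := by rw [mul_sum]
      _ ≤ R0 * ((Is.card : ℝ) * x) :=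
          mul_le_mul_of_nonneg_left (hsumall.trans hxtot) hR0pos
  · -- the thresholds
    by_cases hIs : Is.Nonempty
    · have hsub : Is.filter (fun i => ∃ t ∈ Θ i, t ∈ Z) ⊆ (range m).biUnion (fun a =>
          (Pairs.filter (fun p => win n (m * b) p.2 = ch a)).image (fun p => p.1)) := by
        intro i hi
        obtain ⟨hiIs, t, ht, htZ⟩ := mem_filter.1 hi
        obtain ⟨a, ha, hta⟩ := mem_biUnion.1 htZ
        refine mem_biUnion.2 ⟨a, ha, mem_image.2 ⟨⟨i, t⟩, mem_filter.2 ⟨?_, mem_winSet.1 hta⟩, rfl⟩⟩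
        exact mem_sigma.2 ⟨hiIs, ht⟩
      have h1 : ((Is.filter (fun i => ∃ t ∈ Θ i, t ∈ Z)).card : ℝ) ≤ ∑ a ∈ range m, thr (ch a) := by
        have h2 := (card_le_card hsub).trans card_biUnion_le
        have h3 : ∑ a ∈ range m, ((Pairs.filter (fun p => win n (m * b) p.2 = ch a)).image
            (fun p => p.1)).card ≤ ∑ a ∈ range m,
            (Pairs.filter (fun p => win n (m * b) p.2 = ch a)).card :=
          sum_le_sum (fun a _ => card_image_le)
        have h4 := h2.trans h3
        simp only [thr]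
        exact_mod_cast h4
      exact h1.trans (hcht hIs)
    · have hIs0 : Is = ∅ := not_nonempty_iff_eq_empty.1 hIs
      simp [hIs0]

end Vale.Agent.Lib.P037D
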