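import Vale.Agent.Lib.P037D.Select
import Vale.Agent.Lib.P037D.Chain

/-! Steps C and D of the P037 double-exponential blueprint, in terms of the host matrix. -/

namespace Vale.Agent.Lib.P037D

open Finset

variable {n k : ℕ}

/-- The ordered copies of `H` in `A`. -/
def Copies (A : Fin n → Fin n → Bool) (H : Fin k → Fin k → Bool) :
    Finset ((Fin k → Fin n) × (Fin k → Fin n)) :=
  univ.filter (fun p => StrictMono p.1 ∧ StrictMono p.2 ∧ ∀ i j, A (p.1 i) (p.2 j) = H i j)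

/-- The word of columns seen by a row tuple. -/
def rowWord (A : Fin n → Fin n → Bool) (ρ : Fin k → Fin n) : Fin n → (Fin k → Bool) :=
  fun c i => A (ρ i) c

/-- The column pattern of `H`. -/
def colPat (H : Fin k → Fin k → Bool) : Fin k → (Fin k → Bool) := fun j i => H i j

lemma rowWord_eq_iff (A : Fin n → Fin n → Bool) (H : Fin k → Fin k → Bool) (ρ : Fin k → Fin n)
    (p : Fin k → Fin n) :
    (∀ j, rowWord A ρ (p j) = colPat H j) ↔ ∀ i j, A (ρ i) (p j) = H i j := by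
  constructor
  · intro h i j
    exact congrFun (h j) i
  · intro h j
    funext i
    exact h i j

lemma mem_occ_rowWord (A : Fin n → Fin n → Bool) (H : Fin k → Fin k → Bool) (ρ : Fin k → Fin n)
    (p : Fin k → Fin n) :
    p ∈ occ (rowWord A ρ) (colPat H) univ ↔ StrictMono p ∧ ∀ i j, A (ρ i) (p j) = H i j := by
  simp [occ, rowWord_eq_iff]

/-- The strict row tuples with at least `g ^ k` columns tuples completing a copy number few. -/
lemma card_nonsparse (A : Fin n → Fin n → Bool) (H : Fin k → Fin k → Bool) (g : ℕ) :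
    ((univ : Finset (Fin k → Fin n)).filter (fun ρ => StrictMono ρ ∧
        g ^ k ≤ (occ (rowWord A ρ) (colPat H) univ).card)).card * g ^ k ≤ (Copies A H).card := by
  classical
  set S := (univ : Finset (Fin k → Fin n)).filter (fun ρ => StrictMono ρ ∧
        g ^ k ≤ (occ (rowWord A ρ) (colPat H) univ).card) with hS
  have h1 : S.card * g ^ k ≤ ∑ ρ ∈ S, (occ (rowWord A ρ) (colPat H) univ).card := by
    have := card_nsmul_le_sum S (fun ρ => (occ (rowWord A ρ) (colPat H) univ).card) (g ^ k)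
      (fun ρ hρ => (mem_filter.1 hρ).2.2)
    simpa using this
  refine h1.trans ?_
  rw [← card_sigma]
  refine card_le_card_of_injOn (fun q => (q.1, q.2)) ?_ ?_
  · rintro ⟨ρ, c⟩ hq
    simp only [coe_sigma, Set.mem_sigma_iff, mem_coe] at hq
    obtain ⟨h2, h3⟩ := hq
    obtain ⟨h4, h5⟩ := (mem_occ_rowWord A H ρ c).1 h3
    simp only [Copies, coe_filter, mem_univ, true_and, Set.mem_ofPred_eq]
    exact ⟨(mem_filter.1 h2).2.1, h4, h5⟩
  · rintro ⟨ρ, c⟩ _ ⟨ρ', c'⟩ _ h
    simp only [Prod.mk.injEq] at h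
    obtain ⟨rfl, rfl⟩ := h
    rfl

variable {Q : Type*} [Fintype Q] [DecidableEq Q]

/-- Steps C and D combined. -/
theorem stepCD {m b g : ℕ} (hk : 0 < k) (hg : 0 < g) (A : Fin n → Fin n → Bool)
    (H : Fin k → Fin k → Bool) (cl : Fin n → Q) (θ : ℝ) (hθ : 0 < θ)
    (hθQ : θ * Fintype.card Q < 1) (hm : 0 < m) (hb : 0 < b) (hn : 2 * (m * b) ≤ n)
    (hn0 : 0 < n) (K : ℝ) (hK : 0 < K)
    (hcost : 2 * θ * Fintype.card Q * n + (2 / θ) * (En cl (m * b) - En cl m) ≤ K)
    (hNb : (Copies A H).card * b ≤ n ^ k * g ^ k)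
    (hgb : 2 * (m : ℝ) * b ^ 2 * g ≤ θ * n) :
    ∃ (κ : Fin n → Fin n) (Bad : Finset (Fin k → Fin n)),
      Bad.card * b ≤ (1 + 9 * k) * n ^ k ∧
      (univ.image κ).card ≤ m * Fintype.card Q ∧
      ((univ.filter (fun c => cl (κ c) ≠ cl c)).card : ℝ) ≤ 2 * K ∧
      (∀ ρ c, StrictMono ρ → StrictMono c → (∀ i j, A (ρ i) (κ (c j)) = H i j) → ρ ∈ Bad) ∧
      (∀ ρ p, StrictMono ρ → StrictMono p → (∀ j, p j ∈ univ.image κ) →
        (∀ i j, A (ρ i) (p j) = H i j) → ρ ∈ Bad) := by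
  classical
  -- sparse tuples and their chain data
  let Is : Finset (Fin k → Fin n) := univ.filter (fun ρ => StrictMono ρ ∧
    (occ (rowWord A ρ) (colPat H) univ).card < g ^ k)
  have hchain : ∀ ρ : Fin k → Fin n, ∃ X Θ : Finset (Fin n), ρ ∈ Is →
      (X.card ≤ k * g ∧ Θ.card ≤ k ∧
      ∀ p : Fin k → Fin n, (∀ j, rowWord A ρ (p j) = colPat H j) → (∀ j, p j ∉ X) →
        ∃ (j j' : Fin k), j'.val = j.val + 1 ∧ ∃ t ∈ Θ, p j' ≤ t ∧ t < p j) := by
    intro ρ
    by_cases hρ : ρ ∈ Is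
    · obtain ⟨X, Θ, h1, h2, h3⟩ := chain_lemma (rowWord A ρ) hg (colPat H) (mem_filter.1 hρ).2.2
      exact ⟨X, Θ, fun _ => ⟨h1, h2, h3⟩⟩
    · exact ⟨∅, ∅, fun h => absurd h hρ⟩
  choose X Θ hXΘ using hchain
  obtain ⟨κ, Z, hK1, hT, hcl, hXhit, hΘhit⟩ := selection cl θ hθ hθQ hm hb hn hn0 K hK hcost Is X Θ
    (k * g) (fun ρ h => (hXΘ ρ h).1) (fun ρ h => (hXΘ ρ h).2.1) hk
  -- the bad tuples
  let B1 : Finset (Fin k → Fin n) := univ.filter (fun ρ => StrictMono ρ ∧
    g ^ k ≤ (occ (rowWord A ρ) (colPat H) univ).card)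
  let B2 := Is.filter (fun ρ => ∃ c, κ c ∈ X ρ)
  let B3 := Is.filter (fun ρ => ∃ t ∈ Θ ρ, t ∈ Z)
  refine ⟨κ, B1 ∪ B2 ∪ B3, ?_, hT, hcl, ?_, ?_⟩
  · -- counting
    have hbR : (0 : ℝ) < b := by exact_mod_cast hb
    have hnR : (0 : ℝ) < n := by exact_mod_cast hn0
    have hgk : 0 < g ^ k := by positivity
    have h1 : B1.card * b ≤ n ^ k := by
      have h := card_nonsparse A H g
      have : (B1.card * b) * g ^ k ≤ n ^ k * g ^ k := by
        calc (B1.card * b) * g ^ k = (B1.card * g ^ k) * b := by ring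
          _ ≤ (Copies A H).card * b := Nat.mul_le_mul_right _ h
          _ ≤ _ := hNb
      exact Nat.le_of_mul_le_mul_right this hgk
    have hIs : (Is.card : ℝ) ≤ (n : ℝ) ^ k := by
      have : Is.card ≤ n ^ k := by
        calc Is.card ≤ (univ : Finset (Fin k → Fin n)).card := card_le_card (filter_subset _ _)
          _ = n ^ k := by simp
      exact_mod_cast this
    have h2 : (B2.card : ℝ) * b ≤ k * (n : ℝ) ^ k := by
      have h := hXhit
      have hnk : (0 : ℝ) ≤ (n : ℝ) ^ k := by positivity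
      have hθn : 0 < θ * n := by positivity
      have e1 : (2 * m * b / (θ * n)) * ((Is.card : ℝ) * ((k * g : ℕ) : ℝ)) * b
          = (2 * (m : ℝ) * b ^ 2 * g) / (θ * n) * (Is.card * k) := by
        push_cast
        field_simp
      have h3 : (2 * (m : ℝ) * b ^ 2 * g) / (θ * n) ≤ 1 := by
        rw [div_le_one hθn]
        exact hgb
      calc (B2.card : ℝ) * b ≤ (2 * m * b / (θ * n)) * ((Is.card : ℝ) * ((k * g : ℕ) : ℝ)) * b :=
            mul_le_mul_of_nonneg_right h hbR.le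
        _ = _ := e1
        _ ≤ 1 * (Is.card * k) := mul_le_mul_of_nonneg_right h3 (by positivity)
        _ ≤ (n : ℝ) ^ k * k := by
            rw [one_mul]
            exact mul_le_mul_of_nonneg_right hIs (by positivity)
        _ = _ := by ring
    have h3 : (B3.card : ℝ) * b ≤ 8 * k * (n : ℝ) ^ k := by
      have h := hΘhit
      calc (B3.card : ℝ) * b ≤ (8 * k * Is.card / b) * b := mul_le_mul_of_nonneg_right h hbR.le
        _ = 8 * k * Is.card := by field_simp
        _ ≤ _ := mul_le_mul_of_nonneg_left hIs (by positivity)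
    have h4 : (((B1 ∪ B2 ∪ B3).card * b : ℕ) : ℝ) ≤ (((1 + 9 * k) * n ^ k : ℕ) : ℝ) := by
      have h5 : (B1 ∪ B2 ∪ B3).card ≤ B1.card + B2.card + B3.card :=
        (card_union_le _ _).trans (Nat.add_le_add_right (card_union_le _ _) _)
      have h5' : ((B1 ∪ B2 ∪ B3).card : ℝ) ≤ B1.card + B2.card + B3.card := by exact_mod_cast h5
      have h1' : (B1.card : ℝ) * b ≤ (n : ℝ) ^ k := by exact_mod_cast h1
      push_cast
      calc ((B1 ∪ B2 ∪ B3).card : ℝ) * b ≤ (B1.card + B2.card + B3.card) * b :=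
            mul_le_mul_of_nonneg_right h5' hbR.le
        _ = B1.card * b + B2.card * b + B3.card * b := by ring
        _ ≤ (n : ℝ) ^ k + k * (n : ℝ) ^ k + 8 * k * (n : ℝ) ^ k := by linarith
        _ = _ := by ring
    exact_mod_cast h4
  · -- first form of step D
    intro ρ c hρ hc hcopy
    by_contra hnot
    simp only [mem_union, not_or] at hnot
    obtain ⟨⟨hn1, hn2⟩, hn3⟩ := hnot
    have hρIs : ρ ∈ Is := by
      refine mem_filter.2 ⟨mem_univ _, hρ, ?_⟩
      by_contra hge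
      exact hn1 (mem_filter.2 ⟨mem_univ _, hρ, not_lt.1 hge⟩)
    obtain ⟨-, -, hprop⟩ := hXΘ ρ hρIs
    obtain ⟨j, j', hjj', t, ht, h1, h2⟩ := hprop (fun j => κ (c j))
      ((rowWord_eq_iff A H ρ _).2 hcopy)
      (fun j hj => hn2 (mem_filter.2 ⟨hρIs, c j, hj⟩))
    have hle : c j ≤ c j' := hc.monotone (by rw [Fin.le_def]; omega)
    exact hn3 (mem_filter.2 ⟨hρIs, t, ht, hK1 _ _ _ hle h1 h2⟩)
  · -- second form of step D
    intro ρ p hρ hp hpT hcopy
    by_contra hnot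
    simp only [mem_union, not_or] at hnot
    obtain ⟨⟨hn1, hn2⟩, hn3⟩ := hnot
    have hρIs : ρ ∈ Is := by
      refine mem_filter.2 ⟨mem_univ _, hρ, ?_⟩
      by_contra hge
      exact hn1 (mem_filter.2 ⟨mem_univ _, hρ, not_lt.1 hge⟩)
    obtain ⟨-, -, hprop⟩ := hXΘ ρ hρIs
    obtain ⟨j, j', hjj', t, ht, h1, h2⟩ := hprop p
      ((rowWord_eq_iff A H ρ _).2 hcopy)
      (fun j hj => by
        obtain ⟨c, -, hc⟩ := mem_image.1 (hpT j)
        exact hn2 (mem_filter.2 ⟨hρIs, c, hc ▸ hj⟩))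
    have hlt : p j < p j' := hp (by rw [Fin.lt_def]; omega)
    exact absurd (lt_of_lt_of_le hlt h1) (not_lt.2 h2.le)

end Vale.Agent.Lib.P037D
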